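import Crest.Statements.S0077
import Crest.Agent.Lib.SharpSym.Graph

set_option autoImplicit false
open Crest Crest.CombinatoricsR

namespace Crest.Agent.S0077

/-- Let n ≥ 2 and let P be a family of simple graphs on n labelled vertices that is invariant under renaming vertices, closed under adding edges, non-empty and not everything; let 0 < ε < 1/2. If the binomial random graph with edge probability p ∈ [0, 1] lies in P with probability at least ε, then at every edge probability q ∈ [0, 1] with q ≥ p + 2^19 · log(1/(2ε)) / (log n)² it lies in P with probability at least 1 - ε: the threshold interval from ε to 1 - ε is at most that long. -/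
theorem result (n : ℕ) (hn : 2 ≤ n)
    (P : Set (SimpleGraph (Fin n)))
    (hsymm : ∀ σ : Equiv.Perm (Fin n), ∀ G : SimpleGraph (Fin n), G ∈ P → G.map σ.toEmbedding ∈ P)
    (hmono : ∀ G G' : SimpleGraph (Fin n), G ≤ G' → G ∈ P → G' ∈ P)
    (hne : P.Nonempty) (hnu : P ≠ Set.univ) (ε : ℝ) (hε0 : 0 < ε) (hε : ε < 1 / 2)
    (p q : ℝ) (hp0 : 0 ≤ p) (hp1 : p ≤ 1) (hq0 : 0 ≤ q) (hq1 : q ≤ 1)
    (hp : ε ≤ Crest.CombinatoricsR.RandomGraph.gnpProb n p P)
    (hq : p + 2 ^ 19 / Real.log n ^ 2 * Real.log (1 / (2 * ε)) ≤ q) :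
    1 - ε ≤ Crest.CombinatoricsR.RandomGraph.gnpProb n q P := by
  have hP : ∀ t, Crest.CombinatoricsR.RandomGraph.gnpProb n t P
      = SharpSym.ex t (SharpSym.ind (SharpSym.bf P)) := SharpSym.gnpProb_eq P
  rw [hP] at hp ⊢
  have hn2 : (2 : ℝ) ≤ n := by exact_mod_cast hn
  have hℓ0 : 0 < Real.log n := Real.log_pos (by linarith)
  have hL : 0 < Real.log (1 / (2 * ε)) := by
    apply Real.log_pos
    rw [lt_div_iff₀ (by positivity)]
    linarith
  have hδ : 0 < 2 ^ 19 / Real.log n ^ 2 * Real.log (1 / (2 * ε)) := by positivity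
  have hpq : p < q := by linarith
  have hp0' : 0 < p := by
    rcases hp0.lt_or_eq with h | h
    · exact h
    · rw [← h, SharpSym.mu_zero P hmono hnu] at hp
      linarith
  have hp1' : p < 1 := by linarith
  by_cases hq1' : q = 1
  · rw [hq1', SharpSym.mu_one P hmono hne]
    linarith
  have hq1'' : q < 1 := lt_of_le_of_ne hq1 hq1'
  set F := SharpSym.ind (SharpSym.bf P) with hF
  have hsym := SharpSym.bf_symm P hsymm
  have hC : (0 : ℝ) < 2 ^ 17 / Real.log n ^ 2 := by positivity
  have hgrowth := SharpSym.logit_growth (μ := fun t => SharpSym.ex t F)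
    (μ' := fun t => ∑ e, SharpSym.ex t (SharpSym.dd e F)) hC
    (fun t _ => SharpSym.hasDerivAt_ex F t)
    (fun t ht => ⟨SharpSym.mu_pos P hmono hne ht.1 ht.2, SharpSym.mu_lt_one P hmono hnu ht.1 ht.2⟩)
    (fun t ht => by
      have h1 := SharpSym.graph_ode hn (SharpSym.bf P) hsym ht.1 ht.2
      have h2 : SharpSym.totI F t = ∑ e, SharpSym.ex t (SharpSym.dd e F) := by
        unfold SharpSym.totI
        exact Finset.sum_congr rfl (fun e _ => SharpSym.piv_eq_ex_dd P hmono t e)
      rw [h2] at h1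
      exact h1)
    (p := p) (q := q) ⟨hp0', hp1'⟩ ⟨by linarith, hq1''⟩ hpq.le
  have hkey : 4 * Real.log (1 / (2 * ε)) ≤ 1 / (2 ^ 17 / Real.log n ^ 2) * (q - p) := by
    have h1 : 2 ^ 19 / Real.log n ^ 2 * Real.log (1 / (2 * ε)) ≤ q - p := by linarith
    have h2 : 1 / (2 ^ 17 / Real.log n ^ 2) * (2 ^ 19 / Real.log n ^ 2 * Real.log (1 / (2 * ε)))
        = 4 * Real.log (1 / (2 * ε)) := by
      field_simp
      norm_num
    rw [← h2]
    exact mul_le_mul_of_nonneg_left h1 (by positivity)
  exact SharpSym.logit_final hε0 hε (SharpSym.mu_pos P hmono hne hp0' hp1')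
    (SharpSym.mu_lt_one P hmono hnu hp0' hp1')
    (SharpSym.mu_pos P hmono hne (by linarith) hq1'')
    (SharpSym.mu_lt_one P hmono hnu (by linarith) hq1'') hp (hkey.trans hgrowth)

end Crest.Agent.S0077
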