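import Crest.Statements.S0078
import Crest.Agent.Lib.SharpSym.Boolean

set_option autoImplicit false
open Crest Crest.CombinatoricsR

namespace Crest.Agent.S0078

/-- For every r ≥ 3 there is a real constant C such that for all n ≥ r, all 0 < p < 1 and every Boolean function f of the simple r-uniform hypergraph on n labelled vertices that is invariant under renaming the vertices (no monotonicity assumed), the variance of f under independent edge-coins of bias p, namely P(f = true) · (1 - P(f = true)), is at most C · (log n)^(-r/(r-1)) times the total pivotal influence of f at bias p (natural logarithm). -/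
theorem result (r : ℕ) (hr : 3 ≤ r) :
    ∃ C : ℝ, ∀ n : ℕ, r ≤ n → ∀ p : ℝ, 0 < p → p < 1 →
      ∀ f : (Crest.CombinatoricsR.HypergraphCube.HyperedgeSlot n r → Bool) → Bool,
        Crest.CombinatoricsR.HypergraphCube.IsSymmetric f →
          Crest.CombinatoricsR.HypergraphCube.probTrue p f *
              (1 - Crest.CombinatoricsR.HypergraphCube.probTrue p f) ≤
            C / Real.log n ^ ((r : ℝ) / ((r : ℝ) - 1)) *
              Crest.CombinatoricsR.HypergraphCube.totalInfluence p f := by
  refine ⟨256 * r + 6684672, ?_⟩
  intro n hn p hp0 hp1 f hf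
  have hr2 : 2 ≤ r := by omega
  have hn3 : 3 ≤ n := by omega
  have hmain := SharpSym.main_bound (SharpSym.ind f) hr2 hn3 hp0 hp1 (SharpSym.ind_bounds f)
    (SharpSym.ind_symm hf)
  rw [SharpSym.var_ind, SharpSym.ex_ind_hyper, SharpSym.totI_ind] at hmain
  refine hmain.trans ?_
  have hn3R : (3 : ℝ) ≤ n := by exact_mod_cast hn3
  have hℓ1 : 1 ≤ Real.log n := by
    rw [Real.le_log_iff_exp_le (by linarith)]
    have := Real.exp_one_lt_d9
    linarith
  have hI0 : 0 ≤ Crest.CombinatoricsR.HypergraphCube.totalInfluence p f := by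
    rw [← SharpSym.totI_ind]
    exact Finset.sum_nonneg (fun e _ => SharpSym.piv_nonneg hp0 hp1 e _)
  have herr := SharpSym.err_bound hr2 hℓ1
  have hgam : SharpSym.gam r = (r : ℝ) / ((r : ℝ) - 1) := rfl
  rw [← hgam]
  refine mul_le_mul_of_nonneg_right ?_ hI0
  have e : (256 * (r : ℝ) + 6684672) / Real.log n ^ SharpSym.gam r
      = 256 * (r : ℝ) / Real.log n ^ SharpSym.gam r + 6684672 / Real.log n ^ SharpSym.gam r := by
    rw [add_div]
  rw [e]
  linarith

end Crest.Agent.S0078
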