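-- Permanence of weakly reversible mass action networks. See Crest/Agent/Lib/MassPerm.
import Crest.Statements.S0122
import Crest.Agent.Lib.MassPerm.Polytope
import Crest.Agent.Lib.MassPerm.Reaction
import Crest.Agent.Lib.MassPerm.Barrier

set_option autoImplicit false
open Crest.AnalysisR.MassAction
open Crest Crest.AnalysisR Crest.AnalysisR.MassAction

namespace Crest.Agent.S0122

open Crest.Agent.Lib.MassPerm

private lemma exists_gap {ι : Type} (s : Finset ι) (v : ι → ℝ) :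
    ∃ gap : ℝ, 0 < gap ∧ ∀ i ∈ s, v i ≠ 0 → gap ≤ |v i| := by
  classical
  induction s using Finset.induction_on with
  | empty => exact ⟨1, one_pos, by simp⟩
  | insert a s _ ih =>
    obtain ⟨g, hg, hs⟩ := ih
    by_cases h : v a = 0
    · refine ⟨g, hg, fun i hi hne => ?_⟩
      rcases Finset.mem_insert.mp hi with rfl | hi
      · exact absurd h hne
      · exact hs i hi hne
    · refine ⟨min g |v a|, lt_min hg (abs_pos.mpr h), fun i hi hne => ?_⟩
      rcases Finset.mem_insert.mp hi with rfl | hi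
      · exact min_le_right _ _
      · exact (min_le_left _ _).trans (hs i hi hne)

private lemma exists_bound {ι : Type} (s : Finset ι) (v : ι → ℝ) :
    ∃ Δ : ℝ, ∀ i ∈ s, |v i| ≤ Δ := by
  refine ⟨∑ i ∈ s, |v i|, fun i hi => ?_⟩
  exact Finset.single_le_sum (f := fun i => |v i|) (fun _ _ => abs_nonneg _) hi

private lemma hgt_sub {d : ℕ} (n : Fin d → ℝ) (r : (Fin d → ℕ) × (Fin d → ℕ)) :
    hgt n r.2 - hgt n r.1 = ∑ i, n i * reactionVector r i := by
  unfold hgt reactionVector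
  rw [← Finset.sum_sub_distrib]
  exact Finset.sum_congr rfl fun i _ => by ring

private lemma field_mem {d : ℕ} (R : Network d) (k : (Fin d → ℕ) × (Fin d → ℕ) → ℝ)
    (x : Fin d → ℝ) : field R k x ∈ stoichSubspace R := by
  unfold field stoichSubspace
  refine Submodule.sum_mem _ fun r hr => Submodule.smul_mem _ _ (Submodule.subset_span ?_)
  exact ⟨r, by exact_mod_cast hr, rfl⟩

private lemma field_contDiff {d : ℕ} (R : Network d) (k : (Fin d → ℕ) × (Fin d → ℕ) → ℝ) :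
    ContDiff ℝ 1 (field R k) := by
  unfold field
  refine ContDiff.sum fun r _ => ContDiff.fun_smul ?_ contDiff_const
  refine contDiff_const.mul ?_
  refine contDiff_prod fun i _ => ?_
  exact (contDiff_apply ℝ ℝ i).pow _

private lemma perp_of_all_eq {d : ℕ} (R : Network d) (n : Fin d → ℝ)
    (h : ∀ r ∈ R, hgt n r.2 = hgt n r.1) (v : Fin d → ℝ) (hv : v ∈ stoichSubspace R) :
    ∑ i, n i * v i = 0 := by
  unfold stoichSubspace at hv
  induction hv using Submodule.span_induction with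
  | mem v hv =>
    obtain ⟨r, hr, rfl⟩ := hv
    rw [← hgt_sub, h r (by exact_mod_cast hr), sub_self]
  | zero => simp
  | add u v _ _ hu hv =>
    simp only [Pi.add_apply, mul_add, Finset.sum_add_distrib, hu, hv, add_zero]
  | smul a v _ hv =>
    have : ∑ i, n i * (a • v) i = a * ∑ i, n i * v i := by
      rw [Finset.mul_sum]
      exact Finset.sum_congr rfl fun i _ => by simp only [Pi.smul_apply, smul_eq_mul]; ring
    rw [this, hv, mul_zero]

/-- For a finite reaction network on `d ≥ 1` species that is weakly reversible, with positive rate constants and mass-action kinetics, every positive stoichiometric class `P` contains a nonempty compact convex set `K` that is forward invariant and absorbing: from every point of `P` there is a solution defined for all forward time, it is unique, it stays coordinatewise positive, and it lies in `K` from some finite time on. -/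
theorem result
    (d : ℕ) (hd : 1 ≤ d) (R : Network d) (hR : IsWeaklyReversible R)
    (k : (Fin d → ℕ) × (Fin d → ℕ) → ℝ) (hk : ∀ r ∈ R, 0 < k r)
    (c : Fin d → ℝ) (hc : ∀ i, 0 < c i) :
    ∃ K : Set (Fin d → ℝ), K ⊆ positiveClass R c ∧ K.Nonempty ∧ IsCompact K ∧ Convex ℝ K ∧
      (∀ x : ℝ → (Fin d → ℝ), IsForwardSolution (field R k) x → x 0 ∈ K →
        ∀ t : ℝ, 0 ≤ t → x t ∈ K) ∧
      (∀ x₀ ∈ positiveClass R c,
        (∃ x : ℝ → (Fin d → ℝ), IsForwardSolution (field R k) x ∧ x 0 = x₀) ∧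
        (∀ x x' : ℝ → (Fin d → ℝ), IsForwardSolution (field R k) x →
          IsForwardSolution (field R k) x' → x 0 = x₀ → x' 0 = x₀ →
          ∀ t : ℝ, 0 ≤ t → x t = x' t) ∧
        (∀ x : ℝ → (Fin d → ℝ), IsForwardSolution (field R k) x → x 0 = x₀ →
          (∀ t : ℝ, 0 ≤ t → ∀ i, 0 < x t i) ∧
          ∃ T : ℝ, 0 ≤ T ∧ ∀ t : ℝ, T ≤ t → x t ∈ K)) := by
  classical
  -- bound for the complexes
  obtain ⟨M, hM⟩ : ∃ M : ℕ, ∀ r ∈ R, ∀ i, r.1 i ≤ M ∧ r.2 i ≤ M := by
    refine ⟨∑ r ∈ R, ∑ i, (r.1 i + r.2 i), fun r hr i => ?_⟩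
    have h1 : r.1 i + r.2 i ≤ ∑ i, (r.1 i + r.2 i) :=
      Finset.single_le_sum (f := fun i => r.1 i + r.2 i) (fun _ _ => Nat.zero_le _)
        (Finset.mem_univ i)
    have h2 : ∑ i, (r.1 i + r.2 i) ≤ ∑ r ∈ R, ∑ i, (r.1 i + r.2 i) :=
      Finset.single_le_sum (f := fun r : (Fin d → ℕ) × (Fin d → ℕ) => ∑ i, (r.1 i + r.2 i))
        (fun _ _ => Nat.zero_le _) hr
    omega
  obtain ⟨J, instJ, n, b, b', ρ, hρ, hb, hb', hfam, hstrict⟩ := polytope_family d M
  -- rate bounds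
  obtain ⟨kmax, hkmax⟩ := exists_bound R k
  obtain ⟨kmin, hkmin, hkmin'⟩ : ∃ kmin : ℝ, 0 < kmin ∧ ∀ r ∈ R, kmin ≤ k r := by
    obtain ⟨g, hg, h⟩ := exists_gap R k
    refine ⟨g, hg, fun r hr => ?_⟩
    have := h r hr (hk r hr).ne'
    rwa [abs_of_pos (hk r hr)] at this
  have hkk : ∀ r ∈ R, kmin ≤ k r ∧ k r ≤ kmax :=
    fun r hr => ⟨hkmin' r hr, (le_abs_self _).trans (hkmax r hr)⟩
  -- height bounds
  obtain ⟨gap, hgap, hgap'⟩ := exists_gap (Finset.univ ×ˢ R)
    (fun q : J × ((Fin d → ℕ) × (Fin d → ℕ)) => hgt (n q.1) q.2.2 - hgt (n q.1) q.2.1)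
  obtain ⟨Δ, hΔ⟩ := exists_bound (Finset.univ ×ˢ R)
    (fun q : J × ((Fin d → ℕ) × (Fin d → ℕ)) => hgt (n q.1) q.2.2 - hgt (n q.1) q.2.1)
  have hΔ0 : ∀ j, ∀ r ∈ R, |hgt (n j) r.2 - hgt (n j) r.1| ≤ Δ := fun j r hr =>
    hΔ (j, r) (Finset.mem_product.mpr ⟨Finset.mem_univ _, hr⟩)
  have hgap0 : ∀ j, ∀ r ∈ R, hgt (n j) r.2 ≠ hgt (n j) r.1 →
      gap ≤ |hgt (n j) r.2 - hgt (n j) r.1| := fun j r hr hne =>
    hgap' (j, r) (Finset.mem_product.mpr ⟨Finset.mem_univ _, hr⟩) (sub_ne_zero.mpr hne)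
  -- margin
  obtain ⟨G, hG⟩ : ∃ G : ℝ, (R.card : ℝ) * kmax * Δ * Real.exp (-G) ≤ kmin * gap / 2 := by
    set A := (R.card : ℝ) * kmax * Δ with hA
    refine ⟨-Real.log (kmin * gap / 2 / (|A| + 1)), ?_⟩
    have hpos : 0 < kmin * gap / 2 / (|A| + 1) := by positivity
    rw [neg_neg, Real.exp_log hpos]
    have h1 : A ≤ |A| + 1 := (le_abs_self A).trans (by linarith)
    calc A * (kmin * gap / 2 / (|A| + 1)) ≤ (|A| + 1) * (kmin * gap / 2 / (|A| + 1)) :=
          mul_le_mul_of_nonneg_right h1 hpos.le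
      _ = kmin * gap / 2 := by field_simp
  obtain ⟨β₁, hβ₁⟩ := hfam G
  obtain ⟨β₂, hβ₂⟩ := hstrict c hc
  set β₀ := max β₁ β₂ with hβ₀
  have h1le : β₁ ≤ β₀ := le_max_left _ _
  have h2le : β₂ ≤ β₀ := le_max_right _ _
  have key := barrier_main (field R k) (field_contDiff R k) (stoichSubspace R) (field_mem R k) c
    n b b' ρ hb hb' β₀
    (fun β hβ x hx i => (hβ₁ β (h1le.trans hβ) x hx).1 i)
    ?_
    (hβ₂ β₀ h2le)
    ?_
  · simp only at key
    obtain ⟨h1, h2, h3, h4, h5, h6⟩ := key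
    refine ⟨_, h1, ⟨c, h2⟩, h3, h4, h5, fun x₀ hx₀ => h6 x₀ hx₀.1 hx₀.2⟩
  · -- the uniform inward bound
    intro βtop hβtop
    set a : ℝ := min (Real.exp (-(ρ * βtop)) / 2) 1 with ha
    have ha0 : 0 < a := lt_min (by positivity) one_pos
    have ha1 : a ≤ 1 := min_le_right _ _
    set m₀ : ℝ := a ^ (d * M) with hm₀
    have hm₀pos : 0 < m₀ := pow_pos ha0 _
    refine ⟨kmin * gap / 2 * m₀, by positivity, fun β hβ x hxS hxK j hj => ?_⟩
    have hbox := (hβ₁ β (h1le.trans hβ.1) x hxK).1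
    have hactive := (hβ₁ β (h1le.trans hβ.1) x hxK).2 j hj
    have hxa : ∀ i, a ≤ x i := fun i => by
      refine (min_le_left _ _).trans (le_trans ?_ (hbox i).1)
      have : Real.exp (-(ρ * βtop)) ≤ Real.exp (-(ρ * β)) := by
        apply Real.exp_le_exp.mpr
        have := mul_le_mul_of_nonneg_left hβ.2 hρ.le
        linarith
      linarith
    have hxpos : ∀ i, 0 < x i := fun i => ha0.trans_le (hxa i)
    have hmon : ∀ r ∈ R, m₀ ≤ ∏ i, x i ^ (r.1 i) := fun r hr => by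
      have h1 : ∏ i, a ^ (r.1 i) ≤ ∏ i, x i ^ (r.1 i) :=
        Finset.prod_le_prod (fun i _ => pow_nonneg ha0.le _)
          (fun i _ => pow_le_pow_left₀ ha0.le (hxa i) _)
      have h2 : m₀ ≤ ∏ i, a ^ (r.1 i) := by
        rw [Finset.prod_pow_eq_pow_sum, hm₀]
        apply pow_le_pow_of_le_one ha0.le ha1
        calc ∑ i, r.1 i ≤ ∑ _i : Fin d, M := Finset.sum_le_sum fun i _ => (hM r hr i).1
          _ = d * M := by simp
      exact h2.trans h1
    have hne : ∃ r₀ ∈ R, hgt (n j) r₀.2 ≠ hgt (n j) r₀.1 := by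
      by_contra hcon
      push Not at hcon
      have h0 := perp_of_all_eq R (n j) hcon (x - c) hxS
      have h1 : ∑ i, n j i * x i = ∑ i, n j i * c i := by
        have : ∑ i, n j i * (x - c) i = ∑ i, n j i * x i - ∑ i, n j i * c i := by
          rw [← Finset.sum_sub_distrib]
          exact Finset.sum_congr rfl fun i _ => by simp only [Pi.sub_apply]; ring
        linarith
      have h2 := hβ₂ β (h2le.trans hβ.1) j
      linarith
    obtain ⟨r₀, hr₀, hr₀ne⟩ := hne
    exact reaction_bound R hR k M hM kmin kmax gap Δ G m₀ hkmin hkk hgap (n j) (hΔ0 j) (hgap0 j)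
      hG x hxpos hmon hactive r₀ hr₀ hr₀ne
  · intro x hx
    obtain ⟨β₃, hβ₃⟩ := hstrict x hx
    exact ⟨max β₀ β₃, le_max_left _ _, fun j => (hβ₃ _ (le_max_right _ _) j).le⟩

end Crest.Agent.S0122
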