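import Crest.Statements.S0137
import Crest.Agent.Lib.Salem.Algebra
import Crest.Agent.Lib.Salem.CoreOf
import Crest.Agent.Lib.Salem.Base
import Crest.Agent.Lib.Salem.Recursion
import Crest.Agent.Lib.Salem.Criterion

set_option autoImplicit false
open MeasureTheory Crest.AnalysisR
open Crest Crest.AnalysisR

namespace Crest.Agent.S0137

/-- Let β be a Salem number of degree four with 1 < β < 2: an algebraic integer whose minimal polynomial over ℚ has degree 4, has β⁻¹ as a root, and has its remaining complex roots on the unit circle. Then the unbiased Bernoulli convolution with parameter β⁻¹ — the distribution of ∑ₙ ±β⁻ⁿ with independent fair signs, built as the push-forward of the infinite product of fair coins — is singular with respect to Lebesgue measure on the line. -/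
theorem result
    (β : ℝ) (hβ : IsQuarticSalem β) (hβ₂ : β < 2) :
    (bernoulliConvolution β⁻¹).MutuallySingular (volume : Measure ℝ) := by
  obtain ⟨ω, hω, hcase⟩ := Crest.Agent.Lib.Salem.salem_structure β hβ hβ₂
  have hc := Crest.Agent.Lib.Salem.core_of_structure β hβ.1 hβ₂ ω hω hcase
  obtain ⟨r, ζ, hr1, hr2, hζ0, hζ1, hnorm, hpow, hadm, hnd⟩ :=
    Crest.Agent.Lib.Salem.base_triple β ω hβ.1 hβ₂ hω hcase
  have hnormζ : ‖(ζ : ℂ)‖ = ζ := by
    rw [Complex.norm_real, Real.norm_eq_abs, abs_of_pos hζ0]
  have hr0 : 0 < r := by linarith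
  refine Crest.Agent.Lib.Salem.singular_of_hasSeq hc.β_ge
    (Crest.Agent.Lib.Salem.hasSeq_of_base hc (H₀ := 33) hadm (by norm_num) le_rfl ?_ ?_ ?_ ?_ ?_ ?_)
  · rw [abs_of_pos hr0]
    linarith
  · rw [abs_of_pos hr0]
    exact hpow
  · rw [abs_of_pos hr0]
    exact hpow
  · rw [abs_of_pos hr0, hnormζ]
    have : r * r * ζ ^ 2 = (r * ζ) ^ 2 := by ring
    rw [this, hnorm]
    norm_num
  · rw [hnormζ]
    exact hζ1
  · rw [hnormζ]
    apply Crest.Agent.Lib.Salem.grob_pos _ _ _ _ (by positivity)
    intro j
    have := hnd j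
    linarith

end Crest.Agent.S0137
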