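import Crest.Statements.S0166
import Crest.Agent.Lib.TreeSumCore

set_option autoImplicit false
open Crest Crest.AnalysisR

namespace Crest.Agent.S0166

open Crest.Agent.Lib.AUC

/-- The example as a record. -/
noncomputable def EE : RealBanach := ⟨EX, inferInstance, inferInstance, inferInstance⟩

lemma max_modulus_E {t : ℝ} (ht : 0 < t) (x : EX) (hx : ‖x‖ = 1) {η : ℝ} (hη : 0 < η) :
    ∃ F : Set EX, Cof F ∧ ∀ y ∈ F, ‖y‖ = 1 →
      Real.sqrt (1 + t ^ 2 / 4) - 1 - η ≤ max ‖x + t • y‖ ‖x - t • y‖ - 1 := by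
  obtain ⟨F, hF, hy⟩ := modulus_E ht x hx hη
  refine ⟨F, hF, fun y hyF hy1 => ?_⟩
  have h1 := hy y hyF hy1
  have h2 : (‖x + t • y‖ + ‖x - t • y‖) / 2 ≤ max ‖x + t • y‖ ‖x - t • y‖ := by
    have h3 := le_max_left ‖x + t • y‖ ‖x - t • y‖
    have h4 := le_max_right ‖x + t • y‖ ‖x - t • y‖
    linarith
  exact le_trans h1 (sub_le_sub_right h2 1)

/-- There is a real Banach space (RealBanach record) that is separable, infinite-dimensional and reflexive, whose given norm has at every t > 0 averaged midpoint asymptotic modulus at least √(1 + t²/12) - 1 and at least (√(1 + t²/4) - 1)/2 and maximum-based midpoint modulus at least √(1 + t²/4) - 1, on which no equivalent norm is asymptotically uniformly convex, and in which for every k every map of the depth-k countably branching diamond graph of distortion at most D has 1 + k/4 ≤ D². -/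
theorem result :
    ∃ E : Crest.AnalysisR.RealBanach, E.IsSeparableInfiniteDim ∧ E.IsReflexive ∧
      (∀ t : ℝ, 0 < t → E.MidpointModulusGE E.norm t (Real.sqrt (1 + t ^ 2 / 12) - 1) ∧
        E.MidpointModulusGE E.norm t ((Real.sqrt (1 + t ^ 2 / 4) - 1) / 2) ∧
        E.MaxMidpointModulusGE E.norm t (Real.sqrt (1 + t ^ 2 / 4) - 1)) ∧
      (∀ N : E.X → ℝ, E.IsEquivNorm N → ¬ E.IsAUC N) ∧
      ∀ (k : ℕ) (f : Crest.AnalysisR.DiamondVertex k → E.X) (D : ℝ),
        E.HasDistortionLE k f D → 1 + (k : ℝ) / 4 ≤ D ^ 2 := by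
  refine ⟨EE, ⟨EX_separable, ?_⟩, EX_reflexive, ?_, ?_, ?_⟩
  · intro hfin
    have hfin' : FiniteDimensional ℝ EX := hfin
    have hcof : Cof ((⊥ : Submodule ℝ EX) : Set EX) := by
      refine ⟨⊥, rfl, ?_, ?_⟩
      · rw [Submodule.bot_coe]
        exact isClosed_singleton
      · exact Module.Finite.equiv (Submodule.quotEquivOfEqBot ⊥ rfl).symm
    obtain ⟨n, -, w, hw, hwclose⟩ :=
      hcof.exists_close_of_weakNull (weakNull_childE 1 [] (by simp)) (show (0:ℝ) < 1 / 2 by norm_num) 0
    have hw0 : w = 0 := by simpa using hw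
    rw [hw0, sub_zero] at hwclose
    have h1 := norm_childE 1 [] (by simp) n
    linarith
  · intro t ht
    have hsqrt1 : 1 ≤ Real.sqrt (1 + t ^ 2 / 4) := by
      apply Real.le_sqrt_of_sq_le
      nlinarith [sq_nonneg t]
    have hsqrt2 : Real.sqrt (1 + t ^ 2 / 12) ≤ Real.sqrt (1 + t ^ 2 / 4) := by
      apply Real.sqrt_le_sqrt
      nlinarith [sq_nonneg t]
    refine ⟨?_, ?_, ?_⟩
    · intro x hx η hη
      obtain ⟨F, hF, hy⟩ := modulus_E ht x hx hη
      refine ⟨F, hF, fun y hyF hy1 => ?_⟩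
      have := hy y hyF hy1
      exact le_trans (by linarith) this
    · intro x hx η hη
      obtain ⟨F, hF, hy⟩ := modulus_E ht x hx hη
      refine ⟨F, hF, fun y hyF hy1 => ?_⟩
      have := hy y hyF hy1
      exact le_trans (by linarith) this
    · intro x hx η hη
      exact max_modulus_E ht x hx hη
  · rintro N ⟨hsub, hhom, a, b, ha, hab⟩ hAUC
    exact no_auc_E N hsub hhom ha hab hAUC
  · rintro k f D ⟨s, hs, hf⟩
    exact distortion_bound midpoint_E k f D s hs hf

end Crest.Agent.S0166
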