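import Crest.Statements.S0167
import Crest.Agent.Lib.DaugavetUpper
import Crest.Agent.Lib.L1Lower

set_option autoImplicit false
open Crest Crest.AnalysisR

namespace Crest.Agent.S0167

open Crest.Agent.Lib.AUC Crest.AnalysisR.L1Subspace

section
variable {V : Type*} [NormedAddCommGroup V] [NormedSpace ℝ V]

/-- The one-sided lower bound holds in every normed space. -/
lemma oneSided_lower {x : V} (hx : ‖x‖ = 1) {t : ℝ} (η : ℝ) (hη : 0 < η) :
    ∃ F : Set V, Cof F ∧ ∀ y ∈ F, ‖y‖ = 1 → max 0 (t - 2) - η ≤ ‖x + t • y‖ - 1 := by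
  obtain ⟨ψ, hψ1, hψx⟩ := exists_dual_vector'' ℝ x
  refine ⟨_, cof_of_functionals (fun _ : Unit => ψ), fun y hy hy1 => ?_⟩
  have hψy : ψ y = 0 := hy ()
  have h1 : 1 ≤ ‖x + t • y‖ := by
    have h2 : ψ (x + t • y) = 1 := by
      rw [map_add, map_smul, hψy, hψx, hx]
      simp
    have h3 := ψ.le_opNorm (x + t • y)
    rw [h2] at h3
    have h4 : ‖ψ‖ * ‖x + t • y‖ ≤ 1 * ‖x + t • y‖ :=
      mul_le_mul_of_nonneg_right hψ1 (norm_nonneg _)
    have h5 : |(1:ℝ)| = 1 := abs_one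
    have h6 : ‖(1:ℝ)‖ = 1 := by simp
    rw [h6] at h3
    linarith
  have h2 : t - 1 ≤ ‖x + t • y‖ := by
    have h3 : ‖t • y‖ ≤ ‖x + t • y‖ + ‖x‖ := by
      have e : t • y = (x + t • y) - x := by abel
      conv_lhs => rw [e]
      exact norm_sub_le _ _
    rw [norm_smul, hy1, mul_one, hx, Real.norm_eq_abs] at h3
    have h4 := le_abs_self t
    linarith
  have h3 : max 0 (t - 2) ≤ ‖x + t • y‖ - 1 := by
    apply max_le <;> linarith
  linarith

/-- The averaged lower bound reduces to the value `t - 1`. -/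
lemma avg_ge_sub {x y : V} (hy1 : ‖y‖ = 1) {t : ℝ} (ht : 0 < t) :
    t ≤ (‖x + t • y‖ + ‖x - t • y‖) / 2 := by
  have h1 : ‖(2 * t) • y‖ ≤ ‖x + t • y‖ + ‖x - t • y‖ := by
    have e : (2 * t) • y = (x + t • y) - (x - t • y) := by
      rw [two_mul, add_smul]
      abel
    rw [e]
    exact norm_sub_le _ _
  rw [norm_smul, hy1, mul_one, Real.norm_eq_abs, abs_of_pos (by positivity)] at h1
  linarith

/-- The upper estimate given by the Daugavet property. -/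
lemma upper_key (hD : HasDaugavetProperty V) {F : Set V} (hF : Cof F) {x : V} (hx : ‖x‖ = 1) {t : ℝ}
    (ht : 0 < t) {η : ℝ} (hη : 0 < η) :
    ∃ y ∈ F, ‖y‖ = 1 ∧ ‖x + t • y‖ ≤ max 1 (t - 1) + η ∧ ‖x - t • y‖ ≤ 1 + t := by
  obtain ⟨y, hyF, hy1, s, hs, hclose⟩ := exists_upper hD hF hx (show 0 < η / t by positivity)
  refine ⟨y, hyF, hy1, ?_, ?_⟩
  · have e : x + t • y = (1 - t / 2) • x + t • s + t • (y - (s - (1 / 2 : ℝ) • x)) := by
      rw [smul_sub, smul_sub, smul_smul, sub_smul, one_smul]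
      have : t * (1 / 2) = t / 2 := by ring
      rw [this]
      abel
    rw [e]
    have h1 : ‖(1 - t / 2) • x‖ = |1 - t / 2| := by
      rw [norm_smul, hx, mul_one, Real.norm_eq_abs]
    have h2 : ‖t • s‖ ≤ t * (1 / 2) := by
      rw [norm_smul, Real.norm_eq_abs, abs_of_pos ht]
      exact mul_le_mul_of_nonneg_left hs ht.le
    have h3 : ‖t • (y - (s - (1 / 2 : ℝ) • x))‖ ≤ η := by
      rw [norm_smul, Real.norm_eq_abs, abs_of_pos ht]
      calc t * ‖y - (s - (1 / 2 : ℝ) • x)‖ ≤ t * (η / t) := mul_le_mul_of_nonneg_left hclose ht.le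
        _ = η := by field_simp
    have h4 : |1 - t / 2| + t * (1 / 2) ≤ max 1 (t - 1) := by
      rcases le_total 0 (1 - t / 2) with h | h
      · rw [abs_of_nonneg h]
        exact le_trans (by linarith) (le_max_left _ _)
      · rw [abs_of_nonpos h]
        exact le_trans (by linarith) (le_max_right _ _)
    calc _ ≤ ‖(1 - t / 2) • x + t • s‖ + ‖t • (y - (s - (1 / 2 : ℝ) • x))‖ := norm_add_le _ _
      _ ≤ ‖(1 - t / 2) • x‖ + ‖t • s‖ + ‖t • (y - (s - (1 / 2 : ℝ) • x))‖ := by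
          gcongr
          exact norm_add_le _ _
      _ ≤ _ := by rw [h1]; linarith
  · calc ‖x - t • y‖ ≤ ‖x‖ + ‖t • y‖ := norm_sub_le _ _
      _ = 1 + t := by rw [norm_smul, hy1, mul_one, hx, Real.norm_eq_abs, abs_of_pos ht]

lemma midpoint_upper (hD : HasDaugavetProperty V) {F : Set V} (hF : Cof F) {x : V} (hx : ‖x‖ = 1) {t : ℝ}
    (ht : 0 < t) {η : ℝ} (hη : 0 < η) :
    ∃ y ∈ F, ‖y‖ = 1 ∧ (‖x + t • y‖ + ‖x - t • y‖) / 2 - 1 ≤ max (t / 2) (t - 1) + η := by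
  obtain ⟨y, hyF, hy1, h1, h2⟩ := upper_key hD hF hx ht hη
  refine ⟨y, hyF, hy1, ?_⟩
  have h3 : (max 1 (t - 1) + η + (1 + t)) / 2 - 1 ≤ max (t / 2) (t - 1) + η := by
    rcases le_total (t - 1) 1 with h | h
    · rw [max_eq_left h]
      have := le_max_left (t / 2) (t - 1)
      linarith
    · rw [max_eq_right h]
      have := le_max_right (t / 2) (t - 1)
      linarith
  linarith

lemma oneSided_upper (hD : HasDaugavetProperty V) {F : Set V} (hF : Cof F) {x : V} (hx : ‖x‖ = 1) {t : ℝ}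
    (ht : 0 < t) {η : ℝ} (hη : 0 < η) :
    ∃ y ∈ F, ‖y‖ = 1 ∧ ‖x + t • y‖ - 1 ≤ max 0 (t - 2) + η := by
  obtain ⟨y, hyF, hy1, h1, -⟩ := upper_key hD hF hx ht hη
  refine ⟨y, hyF, hy1, ?_⟩
  have h3 : max 1 (t - 1) - 1 ≤ max 0 (t - 2) := by
    rcases le_total (t - 1) 1 with h | h
    · rw [max_eq_left h]
      have := le_max_left (0 : ℝ) (t - 2)
      linarith
    · rw [max_eq_right h]
      have := le_max_right (0 : ℝ) (t - 2)
      linarith
  linarith

/-- The game step of the non-renormability. -/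
lemma game_step (hD : HasDaugavetProperty V) (k : ℕ) (x : V)
    (hPx : ‖x‖ ≤ 2 + 1 / (((k + 1 : ℕ) : ℝ) + 1)) (hx0 : x ≠ 0) (F : Set V) (hF : Cof F) :
    ∃ z ∈ F, ‖z‖ = 2 ∧ ‖x + z‖ ≤ 2 + 1 / ((k : ℝ) + 1) := by
  have hρ : 0 < ‖x‖ := norm_pos_iff.2 hx0
  obtain ⟨ρ, hρdef⟩ : ∃ ρ, ρ = ‖x‖ := ⟨_, rfl⟩
  rw [← hρdef] at hPx hρ
  obtain ⟨x', hx'1, hxx'⟩ : ∃ x' : V, ‖x'‖ = 1 ∧ x = ρ • x' := by
    refine ⟨ρ⁻¹ • x, ?_, ?_⟩
    · rw [norm_smul, norm_inv, Real.norm_eq_abs, abs_of_pos hρ, ← hρdef]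
      exact inv_mul_cancel₀ hρ.ne'
    · rw [smul_smul, mul_inv_cancel₀ hρ.ne', one_smul]
  have hk0 : (0:ℝ) < (k : ℝ) + 1 := by positivity
  have hk1 : (0:ℝ) < ((k + 1 : ℕ) : ℝ) + 1 := by positivity
  have hgap : 0 < 1 / ((k : ℝ) + 1) - 1 / (((k + 1 : ℕ) : ℝ) + 1) := by
    have : 1 / (((k + 1 : ℕ) : ℝ) + 1) < 1 / ((k : ℝ) + 1) := by
      apply one_div_lt_one_div_of_lt hk0
      push_cast
      linarith
    linarith
  set η : ℝ := (1 / ((k : ℝ) + 1) - 1 / (((k + 1 : ℕ) : ℝ) + 1)) / 2 with hη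
  have hηpos : 0 < η := by positivity
  obtain ⟨y, hyF, hy1, s, hs, hclose⟩ := exists_upper hD hF hx'1 hηpos
  obtain ⟨S, rfl, -, -⟩ := hF
  refine ⟨(2 : ℝ) • y, S.smul_mem 2 hyF, ?_, ?_⟩
  · rw [norm_smul, hy1]
    simp
  · have e : x + (2 : ℝ) • y = (ρ - 1) • x' + (2 : ℝ) • s + (2 : ℝ) • (y - (s - (1 / 2 : ℝ) • x')) := by
      rw [hxx']
      module
    rw [e]
    have h1 : ‖(ρ - 1) • x'‖ = |ρ - 1| := by
      rw [norm_smul, hx'1, mul_one, Real.norm_eq_abs]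
    have h2 : ‖(2 : ℝ) • s‖ ≤ 1 := by
      rw [norm_smul]
      simp only [Real.norm_eq_abs, abs_two]
      linarith
    have h3 : ‖(2 : ℝ) • (y - (s - (1 / 2 : ℝ) • x'))‖ ≤ 2 * η := by
      rw [norm_smul]
      simp only [Real.norm_eq_abs, abs_two]
      linarith
    have h4 : |ρ - 1| ≤ 1 + 1 / (((k + 1 : ℕ) : ℝ) + 1) := by
      rw [abs_le]
      have : 0 < 1 / (((k + 1 : ℕ) : ℝ) + 1) := by positivity
      constructor <;> linarith
    calc _ ≤ ‖(ρ - 1) • x' + (2 : ℝ) • s‖ + ‖(2 : ℝ) • (y - (s - (1 / 2 : ℝ) • x'))‖ := norm_add_le _ _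
      _ ≤ ‖(ρ - 1) • x'‖ + ‖(2 : ℝ) • s‖ + ‖(2 : ℝ) • (y - (s - (1 / 2 : ℝ) • x'))‖ := by
          gcongr
          exact norm_add_le _ _
      _ ≤ _ := by
          rw [h1]
          have : 2 * η = 1 / ((k : ℝ) + 1) - 1 / (((k + 1 : ℕ) : ℝ) + 1) := by
            rw [hη]; ring
          linarith

lemma no_auc (hD : HasDaugavetProperty V) (hnt : Nontrivial V) (N : V → ℝ)
    (hsub : ∀ x y : V, N (x + y) ≤ N x + N y)
    (hhom : ∀ (a : ℝ) (x : V), N (a • x) = |a| * N x)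
    {a b : ℝ} (ha : 0 < a) (hab : ∀ x : V, a * ‖x‖ ≤ N x ∧ N x ≤ b * ‖x‖)
    (hAUC : ∀ t : ℝ, 0 < t → ∃ c : ℝ, 0 < c ∧ ∀ x : V, N x = 1 → ∃ F : Set V, Cof F ∧
      ∀ y ∈ F, N y = 1 → c ≤ N (x + t • y) - 1) : False := by
  refine not_auc_of_game N hsub hhom ha hab (M := 3) (κ := 2) (κ₀ := 1) (by norm_num) (by norm_num)
    (fun k x => ‖x‖ ≤ 2 + 1 / ((k : ℝ) + 1)) ?_ ?_ ?_ hAUC
  · intro k
    obtain ⟨v, hv⟩ := exists_ne (0 : V)
    refine ⟨(‖v‖⁻¹) • v, ?_, ?_⟩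
    · rw [norm_smul, norm_inv, norm_norm, inv_mul_cancel₀ (norm_ne_zero_iff.2 hv)]
      have : 0 < 1 / ((k : ℝ) + 1) := by positivity
      linarith
    · rw [norm_smul, norm_inv, norm_norm, inv_mul_cancel₀ (norm_ne_zero_iff.2 hv)]
  · intro k x hx
    have h1 : 1 / ((k : ℝ) + 1) ≤ 1 := by
      rw [div_le_one (by positivity)]
      have : (0:ℝ) ≤ k := by positivity
      linarith
    show ‖x‖ ≤ 3
    have hx' : ‖x‖ ≤ 2 + 1 / ((k : ℝ) + 1) := hx
    linarith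
  · intro k x hPx hx0 F hF ε hε
    obtain ⟨z, hz, hz2, hzx⟩ := game_step hD k x hPx hx0 F hF
    exact ⟨z, z, hz, by simp [hε.le], hz2.ge, hzx⟩

end

lemma midpoint_lower {Ω : Type} [MeasurableSpace Ω] {P : MeasureTheory.Measure Ω}
    [MeasureTheory.IsProbabilityMeasure P] {E : Submodule ℝ (MeasureTheory.Lp ℝ 1 P)}
    (htb : UnitBallTotallyBoundedInMeasure P E) (x : E) (hx : ‖x‖ = 1) {t : ℝ} (ht : 0 < t)
    {η : ℝ} (hη : 0 < η) :
    ∃ F : Set E, Cof F ∧ ∀ y ∈ F, ‖y‖ = 1 →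
      max (t / 2) (t - 1) - η ≤ (‖x + t • y‖ + ‖x - t • y‖) / 2 - 1 := by
  obtain ⟨F, hF, hy⟩ := exists_cof_avg htb x hx ht hη
  refine ⟨F, hF, fun y hyF hy1 => ?_⟩
  have h1 := hy y hyF hy1
  have h2 := avg_ge_sub (x := x) (y := y) hy1 ht
  have : max (t / 2) (t - 1) ≤ (‖x + t • y‖ + ‖x - t • y‖) / 2 - 1 + η := by
    apply max_le <;> linarith
  linarith

/-- Let E be an infinite-dimensional closed subspace of the real L¹ of a probability space whose closed unit ball is totally bounded for convergence in measure and whose norm has the Daugavet property. Then at every unit x ∈ E and every t > 0 the averaged midpoint quantity sup_F inf_y ((‖x+ty‖+‖x-ty‖)/2 - 1) equals max(t/2, t-1) and the one-sided one sup_F inf_y (‖x+ty‖ - 1) equals max(0, t-2), as matching lower and upper bounds, and E admits no equivalent asymptotically uniformly convex norm. -/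
theorem result (Ω : Type) [MeasurableSpace Ω] (P : MeasureTheory.Measure Ω) [MeasureTheory.IsProbabilityMeasure P]
    (E : Submodule ℝ (MeasureTheory.Lp ℝ 1 P)) (hcl : IsClosed (E : Set (MeasureTheory.Lp ℝ 1 P)))
    (hinf : ¬ FiniteDimensional ℝ E)
    (htb : Crest.AnalysisR.L1Subspace.UnitBallTotallyBoundedInMeasure P E)
    (hD : Crest.AnalysisR.L1Subspace.HasDaugavetProperty E) :
    (∀ t : ℝ, 0 < t →
      (Crest.AnalysisR.L1Subspace.toRealBanach P E hcl).MidpointModulusGE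
          (Crest.AnalysisR.L1Subspace.toRealBanach P E hcl).norm t (max (t / 2) (t - 1)) ∧
        (Crest.AnalysisR.L1Subspace.toRealBanach P E hcl).MidpointModulusLE
          (Crest.AnalysisR.L1Subspace.toRealBanach P E hcl).norm t (max (t / 2) (t - 1)) ∧
        (Crest.AnalysisR.L1Subspace.toRealBanach P E hcl).OneSidedModulusGE
          (Crest.AnalysisR.L1Subspace.toRealBanach P E hcl).norm t (max 0 (t - 2)) ∧
        (Crest.AnalysisR.L1Subspace.toRealBanach P E hcl).OneSidedModulusLE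
          (Crest.AnalysisR.L1Subspace.toRealBanach P E hcl).norm t (max 0 (t - 2))) ∧
      ∀ N : E → ℝ, (Crest.AnalysisR.L1Subspace.toRealBanach P E hcl).IsEquivNorm N →
        ¬ (Crest.AnalysisR.L1Subspace.toRealBanach P E hcl).IsAUC N := by
  refine ⟨fun t ht => ⟨?_, ?_, ?_, ?_⟩, ?_⟩
  · intro x hx η hη
    exact midpoint_lower htb x hx ht hη
  · intro x hx F hF η hη
    exact midpoint_upper (V := E) hD hF hx ht hη
  · intro x hx η hη
    exact oneSided_lower (V := E) hx η hη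
  · intro x hx F hF η hη
    exact oneSided_upper (V := E) hD hF hx ht hη
  · rintro N ⟨hsub, hhom, a, b, ha, hab⟩ hAUC
    have hnt : Nontrivial E := by
      by_contra hcon
      rw [not_nontrivial_iff_subsingleton] at hcon
      exact hinf inferInstance
    exact no_auc (V := E) hD hnt N hsub hhom ha hab hAUC

end Crest.Agent.S0167
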