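import Crest.Statements.S0168
import Crest.Agent.Lib.TreeSpace

set_option autoImplicit false
open Crest Crest.AnalysisR

namespace Crest.Agent.S0168

open Crest.Agent.Lib.AUC Crest.AnalysisR.TreePotential Filter Topology

/-- The space of a model is separable. -/
lemma separable_model (m : PotentialModel) :
    TopologicalSpace.SeparableSpace (modelSpace m) := by
  have h1 : TopologicalSpace.IsSeparable (Set.range (coordVector m)) :=
    (Set.countable_range _).isSeparable
  have h2 : TopologicalSpace.IsSeparable (modelSpace m : Set (Amb m)) := by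
    have := h1.span (R := ℝ)
    exact this.closure
  exact h2.separableSpace

/-- The coordinate functional on the model space. -/
noncomputable def coordF (m : PotentialModel) (s : List ℕ) : modelSpace m →L[ℝ] ℝ :=
  (ev (coordTest m s)).comp (modelSpace m).subtypeL

lemma modulus_model (m : PotentialModel) {t : ℝ} (ht : 0 < t) (x : modelSpace m) (hx : ‖x‖ = 1)
    {η : ℝ} (hη : 0 < η) :
    ∃ F : Set (modelSpace m), Cof F ∧ ∀ y ∈ F, ‖y‖ = 1 →
      Real.sqrt (1 + t ^ 2 / 4) - 1 - η ≤ (‖x + t • y‖ + ‖x - t • y‖) / 2 - 1 := by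
  have hxcl : (x : Amb m) ∈ closure (Submodule.span ℝ (coordVector m '' Set.univ) : Set (Amb m)) := by
    rw [Set.image_univ]
    exact x.2
  obtain ⟨S, hS, -, xh, hxh, hclose⟩ := exists_rooted_approx (Set.mem_univ _) (fun _ _ _ => Set.mem_univ _)
    hxcl (show 0 < η / 2 by positivity)
  refine ⟨{u | ∀ i : S, coordF m i u = 0}, cof_of_functionals _, ?_⟩
  intro y hy hy1
  have hy0 : ∀ s ∈ S, ev (coordTest m s) (y : Amb m) = 0 := fun s hs => hy ⟨s, hs⟩
  have hmain := main_ineq hS hxh y.2 hy0 ht.le
  have hy1' : ‖(y : Amb m)‖ = 1 := hy1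
  rw [hy1'] at hmain
  have hx1 : ‖(x : Amb m)‖ = 1 := hx
  have h1 : ‖xh + t • (y : Amb m)‖ ≤ ‖x + t • y‖ + η / 2 := by
    have e : xh + t • (y : Amb m) = (x + t • y : modelSpace m) + (xh - x) := by
      push_cast; abel
    rw [e]
    refine (norm_add_le _ _).trans ?_
    have : ‖xh - (x : Amb m)‖ = ‖(x : Amb m) - xh‖ := norm_sub_rev _ _
    rw [this]
    have : ‖((x + t • y : modelSpace m) : Amb m)‖ = ‖x + t • y‖ := rfl
    rw [this]
    linarith
  have h2 : ‖xh - t • (y : Amb m)‖ ≤ ‖x - t • y‖ + η / 2 := by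
    have e : xh - t • (y : Amb m) = (x - t • y : modelSpace m) + (xh - x) := by
      push_cast; abel
    rw [e]
    refine (norm_add_le _ _).trans ?_
    have : ‖xh - (x : Amb m)‖ = ‖(x : Amb m) - xh‖ := norm_sub_rev _ _
    rw [this]
    have : ‖((x - t • y : modelSpace m) : Amb m)‖ = ‖x - t • y‖ := rfl
    rw [this]
    linarith
  -- the square root estimate
  have hxh1 : 1 - η / 2 ≤ ‖xh‖ := by
    have : ‖(x : Amb m)‖ ≤ ‖xh‖ + ‖(x : Amb m) - xh‖ := by
      have := norm_add_le xh ((x : Amb m) - xh)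
      simpa using this
    linarith
  have hsqrt : Real.sqrt (1 + t ^ 2 / 4) - η / 2 ≤ Real.sqrt (‖xh‖ ^ 2 + t ^ 2 * 1 ^ 2 / 4) := by
    apply sub_le_iff_le_add.mpr
    have hpos : 0 ≤ Real.sqrt (‖xh‖ ^ 2 + t ^ 2 * 1 ^ 2 / 4) + η / 2 := by positivity
    apply Real.sqrt_le_iff.mpr
    refine ⟨hpos, ?_⟩
    have hsq : Real.sqrt (‖xh‖ ^ 2 + t ^ 2 * 1 ^ 2 / 4) ^ 2 = ‖xh‖ ^ 2 + t ^ 2 * 1 ^ 2 / 4 :=
      Real.sq_sqrt (by positivity)
    have hnn := Real.sqrt_nonneg (‖xh‖ ^ 2 + t ^ 2 * 1 ^ 2 / 4)
    have hge : ‖xh‖ ≤ Real.sqrt (‖xh‖ ^ 2 + t ^ 2 * 1 ^ 2 / 4) := by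
      apply Real.le_sqrt_of_sq_le
      nlinarith [sq_nonneg t]
    nlinarith
  linarith

/-- The children of a vertex as elements of the model space. -/
noncomputable def childVec (m : PotentialModel) (v : List ℕ) (n : ℕ) : modelSpace m :=
  ⟨coordVector m (n :: v), Submodule.le_topologicalClosure _ (Submodule.subset_span ⟨_, rfl⟩)⟩

lemma weakNull_children (m : PotentialModel) (v : List ℕ) (φ : modelSpace m →L[ℝ] ℝ) :
    Tendsto (fun n => φ (childVec m v n)) atTop (𝓝 0) := by
  apply weakNull_of_ell2 (C := 1) zero_le_one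
  intro K c
  rw [one_mul]
  have := norm_sum_children_le m v (Finset.range K) c
  have e : (((∑ n ∈ Finset.range K, c n • childVec m v n : modelSpace m)) : Amb m)
      = ∑ n ∈ Finset.range K, c n • coordVector m (n :: v) := by
    simp [childVec]
  show ‖((∑ n ∈ Finset.range K, c n • childVec m v n : modelSpace m) : Amb m)‖ ≤ _
  rw [e]
  exact this

/-- No equivalent norm on a model space is asymptotically uniformly convex. -/
lemma no_auc_model (m : PotentialModel) (N : modelSpace m → ℝ)
    (hsub : ∀ x y : modelSpace m, N (x + y) ≤ N x + N y)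
    (hhom : ∀ (a : ℝ) (x : modelSpace m), N (a • x) = |a| * N x)
    {a b : ℝ} (ha : 0 < a) (hab : ∀ x : modelSpace m, a * ‖x‖ ≤ N x ∧ N x ≤ b * ‖x‖)
    (hAUC : ∀ t : ℝ, 0 < t → ∃ c : ℝ, 0 < c ∧ ∀ x : modelSpace m, N x = 1 → ∃ F : Set (modelSpace m),
      Cof F ∧ ∀ y ∈ F, N y = 1 → c ≤ N (x + t • y) - 1) : False := by
  have hmem : ∀ s, coordVector m s ∈ modelSpace m := fun s =>
    Submodule.le_topologicalClosure _ (Submodule.subset_span ⟨s, rfl⟩)
  have hpathmem : ∀ v, pathSum m v ∈ modelSpace m := by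
    intro v
    induction v with
    | nil => exact hmem []
    | cons a v ih => exact Submodule.add_mem _ ih (hmem _)
  let P : ℕ → modelSpace m → Prop := fun _ x => ∃ v, (x : Amb m) = pathSum m v
  refine not_auc_of_game N hsub hhom ha hab (M := 1) (κ := 1) (κ₀ := 1) one_pos one_pos P ?_ ?_ ?_ hAUC
  · intro k
    refine ⟨⟨pathSum m [0], hpathmem _⟩, ⟨[0], rfl⟩, ?_⟩
    have h := abs_ev_le (coordTest m [0]) (pathSum m [0])
    have h0 : ev (coordTest m [0]) (pathSum m [0]) = 1 := by
      rw [ev_pathSum]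
      simp only [pathPotential]
      rw [coordTest_apply_ne m (by simp), coordTest_apply_self m (Or.inl (by simp))]
      norm_num
    rw [h0] at h
    simpa using h
  · rintro k x ⟨v, hv⟩
    show ‖(x : Amb m)‖ ≤ 1
    rw [hv]
    exact norm_pathSum_le m v
  · rintro k x ⟨v, hv⟩ _ F hF ε hε
    obtain ⟨n, -, w, hw, hwclose⟩ := hF.exists_close_of_weakNull (weakNull_children m v) hε 0
    refine ⟨childVec m v n, w, hw, hwclose, ?_, n :: v, ?_⟩
    · exact norm_coordVector_ge m (Or.inl (by simp))
    · simp [hv, childVec, pathSum]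

/-- For each of the four bounded-potential coordinate models on the countably branching tree (rootless sibling, rooted sibling, antichain, global), the generated space, namely the closure of the span of the coordinate vectors in the supremum norm over the model's tests, is separable and infinite-dimensional, its norm has at every unit centre and every 0 < t < 1 averaged midpoint asymptotic quantity at least √(1 + t²/4) - 1, and no equivalent norm on it is asymptotically uniformly convex. -/
theorem result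
    (m : Crest.AnalysisR.TreePotential.PotentialModel) :
    (Crest.AnalysisR.TreePotential.modelBanach m).IsSeparableInfiniteDim ∧
      (∀ t : ℝ, 0 < t → t < 1 →
        (Crest.AnalysisR.TreePotential.modelBanach m).MidpointModulusGE
          (Crest.AnalysisR.TreePotential.modelBanach m).norm t (Real.sqrt (1 + t ^ 2 / 4) - 1)) ∧
      ∀ N : (Crest.AnalysisR.TreePotential.modelBanach m).X → ℝ,
        (Crest.AnalysisR.TreePotential.modelBanach m).IsEquivNorm N →
          ¬ (Crest.AnalysisR.TreePotential.modelBanach m).IsAUC N := by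
  refine ⟨⟨separable_model m, ?_⟩, ?_, ?_⟩
  · intro hfin
    have hfin' : FiniteDimensional ℝ (modelSpace m) := hfin
    have hcof : Cof ((⊥ : Submodule ℝ (modelSpace m)) : Set (modelSpace m)) := by
      refine ⟨⊥, rfl, ?_, ?_⟩
      · rw [Submodule.bot_coe]
        exact isClosed_singleton
      · exact Module.Finite.equiv (Submodule.quotEquivOfEqBot ⊥ rfl).symm
    obtain ⟨n, -, w, hw, hwclose⟩ :=
      hcof.exists_close_of_weakNull (weakNull_children m []) (show (0:ℝ) < 1 / 2 by norm_num) 0
    have hw0 : w = 0 := by simpa using hw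
    rw [hw0, sub_zero] at hwclose
    have h1 : 1 ≤ ‖coordVector m [n]‖ := norm_coordVector_ge m (Or.inl (by simp))
    have h2 : ‖childVec m [] n‖ = ‖coordVector m [n]‖ := rfl
    rw [h2] at hwclose
    linarith
  · intro t ht _ x hx η hη
    exact modulus_model m ht x hx hη
  · rintro N ⟨hsub, hhom, a, b, ha, hab⟩ hAUC
    exact no_auc_model m N hsub hhom ha hab hAUC

end Crest.Agent.S0168
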