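import Crest.Statements.S0169
import Crest.Agent.Lib.TreeProd

set_option autoImplicit false
open MeasureTheory ProbabilityTheory
open Crest Crest.AnalysisR

namespace Crest.Agent.S0169

open Filter Topology Crest.AnalysisR.TreeProduct Crest.Agent.Lib.AUC Crest.Agent.Lib.AUC.TreeProd

section

variable {Ω : Type} [MeasurableSpace Ω] {μ : Measure Ω} {ν : Measure ℝ} {W : List ℕ → Ω → ℝ}

lemma norm_eq_of_ae {g : Lp ℝ 1 μ} {f : Ω → ℝ} (hg : (g : Ω → ℝ) =ᵐ[μ] f) :
    ‖g‖ = ∫ ω, |f ω| ∂μ := by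
  rw [L1.norm_eq_integral_norm]
  apply integral_congr_ae
  filter_upwards [hg] with ω hω
  rw [hω, Real.norm_eq_abs]

lemma sum_ae (A : Finset ℕ) (a : ℕ → ℝ) (u : ℕ → Lp ℝ 1 μ) (f : ℕ → Ω → ℝ)
    (hu : ∀ n, (u n : Ω → ℝ) =ᵐ[μ] f n) :
    ((∑ n ∈ A, a n • u n : Lp ℝ 1 μ) : Ω → ℝ) =ᵐ[μ] fun ω => ∑ n ∈ A, a n * f n ω := by
  classical
  induction A using Finset.induction_on with
  | empty =>
    simp only [Finset.sum_empty]
    exact Lp.coeFn_zero ℝ 1 μ
  | insert n s hn ih =>
    rw [Finset.sum_insert hn]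
    have h1 := Lp.coeFn_add (a n • u n) (∑ m ∈ s, a m • u m)
    have h2 := Lp.coeFn_smul (a n) (u n)
    filter_upwards [h1, h2, ih, hu n] with ω e1 e2 e3 e4
    rw [e1, Finset.sum_insert hn]
    simp only [Pi.add_apply, Pi.smul_apply]
    rw [e2, e3]
    simp only [Pi.smul_apply, smul_eq_mul]
    rw [e4]

variable [IsProbabilityMeasure μ] [IsProbabilityMeasure ν]

/-- The `L¹` class of a path product. -/
noncomputable def pathL (h : Hyp ν μ W) (v : List ℕ) : Lp ℝ 1 μ :=
  (h.path_integrable v).toL1 _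

lemma pathL_coe (h : Hyp ν μ W) (v : List ℕ) : (pathL h v : Ω → ℝ) =ᵐ[μ] pathProduct W v :=
  Integrable.coeFn_toL1 _

lemma pathL_mem (h : Hyp ν μ W) (v : List ℕ) : pathL h v ∈ productSpan μ W :=
  Submodule.le_topologicalClosure _ (Submodule.subset_span ⟨v, pathL_coe h v⟩)

lemma norm_pathL (h : Hyp ν μ W) (v : List ℕ) : ‖pathL h v‖ = 1 := by
  rw [norm_eq_of_ae (pathL_coe h v)]
  exact h.path_abs_integral v

/-- The path vectors in the span. -/
noncomputable def pathE (h : Hyp ν μ W) (v : List ℕ) : productSpan μ W :=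
  ⟨pathL h v, pathL_mem h v⟩

/-- The increments in the span. -/
noncomputable def incrE (h : Hyp ν μ W) (v : List ℕ) (n : ℕ) : productSpan μ W :=
  pathE h (n :: v) - pathE h v

lemma incrE_coe (h : Hyp ν μ W) (v : List ℕ) (n : ℕ) :
    (((incrE h v n : productSpan μ W) : Lp ℝ 1 μ) : Ω → ℝ) =ᵐ[μ] incr W v n := by
  have h1 := Lp.coeFn_sub (pathL h (n :: v)) (pathL h v)
  have h2 : ((incrE h v n : productSpan μ W) : Lp ℝ 1 μ) = pathL h (n :: v) - pathL h v := rfl
  rw [h2]
  filter_upwards [h1, pathL_coe h (n :: v), pathL_coe h v] with ω e1 e2 e3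
  rw [e1]
  simp only [Pi.sub_apply]
  rw [e2, e3, path_cons_eq]
  ring

lemma norm_incrE (h : Hyp ν μ W) (v : List ℕ) (n : ℕ) : ‖incrE h v n‖ = kappa ν := by
  have h1 : ‖incrE h v n‖ = ‖((incrE h v n : productSpan μ W) : Lp ℝ 1 μ)‖ := rfl
  rw [h1, norm_eq_of_ae (incrE_coe h v n)]
  exact h.incr_abs_integral v n

lemma weakNull_incrE (h : Hyp ν μ W) (v : List ℕ) (φ : productSpan μ W →L[ℝ] ℝ) :
    Tendsto (fun n => φ (incrE h v n)) atTop (𝓝 0) := by
  apply weakNull_of_ell2
    (C := Real.sqrt ((∫ ω, pathProduct W v ω ^ 2 ∂μ) * sigma2 ν)) (Real.sqrt_nonneg _)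
  intro K a
  have e : ((∑ n ∈ Finset.range K, a n • incrE h v n : productSpan μ W) : Lp ℝ 1 μ)
      = ∑ n ∈ Finset.range K, a n • ((incrE h v n : productSpan μ W) : Lp ℝ 1 μ) := by
    simp
  have h1 : ‖∑ n ∈ Finset.range K, a n • incrE h v n‖
      = ‖((∑ n ∈ Finset.range K, a n • incrE h v n : productSpan μ W) : Lp ℝ 1 μ)‖ := rfl
  rw [h1, e, norm_eq_of_ae (sum_ae _ a _ _ (incrE_coe h v))]
  exact h.integral_abs_sum_le v _ a

end

/-- Let ν be a Borel probability law on ℝ carried by (0,∞), not a point mass, with mean 1 and finite second moment, and W an independent family of real random variables on a probability space indexed by the vertices of the countably branching tree (finite lists of naturals; root [], parent of a :: v is v), each non-root one with law ν. Then the closed linear span in L¹ of the path products ∏_{root ≺ u ≼ v} W_u is infinite-dimensional and has no equivalent asymptotically uniformly convex norm. -/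
theorem result (ν : Measure ℝ) [IsProbabilityMeasure ν] (hpos : ν (Set.Ioi 0) = 1)
    (hnc : ∀ c : ℝ, ν ≠ Measure.dirac c) (hmean : ∫ x, x ∂ν = 1)
    (hm2 : Integrable (fun x : ℝ => x ^ 2) ν)
    (Ω : Type) [MeasurableSpace Ω] (μ : Measure Ω) [IsProbabilityMeasure μ]
    (W : List ℕ → Ω → ℝ) (hW : Crest.AnalysisR.TreeProduct.IsRealization ν μ W) :
    ¬ FiniteDimensional ℝ (Crest.AnalysisR.TreeProduct.productSpan μ W) ∧
      ∀ N : (Crest.AnalysisR.TreeProduct.spanBanach μ W).X → ℝ,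
        (Crest.AnalysisR.TreeProduct.spanBanach μ W).IsEquivNorm N →
          ¬ (Crest.AnalysisR.TreeProduct.spanBanach μ W).IsAUC N := by
  have h : Hyp ν μ W := ⟨hW.1, hW.2.1, hW.2.2, hpos, hmean, hm2⟩
  have hκ : 0 < kappa ν := kappa_pos hnc h.integrable_abs_sub_one
  constructor
  · intro hfin
    have hcof : Cof ((⊥ : Submodule ℝ (productSpan μ W)) : Set (productSpan μ W)) := by
      refine ⟨⊥, rfl, ?_, ?_⟩
      · rw [Submodule.bot_coe]
        exact isClosed_singleton
      · exact Module.Finite.equiv (Submodule.quotEquivOfEqBot ⊥ rfl).symm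
    obtain ⟨n, -, w, hw, hwclose⟩ :=
      hcof.exists_close_of_weakNull (weakNull_incrE h []) (show 0 < kappa ν / 2 by positivity) 0
    have hw0 : w = 0 := by simpa using hw
    rw [hw0, sub_zero, norm_incrE] at hwclose
    linarith
  · rintro N ⟨hsub, hhom, a, b, ha, hab⟩ hAUC
    let P : ℕ → productSpan μ W → Prop := fun _ x => ∃ v, x = pathE h v
    refine not_auc_of_game (X := productSpan μ W) N hsub hhom ha hab (M := 1) (κ := kappa ν) (κ₀ := 1)
      hκ one_pos P ?_ ?_ ?_ hAUC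
    · intro _
      refine ⟨pathE h [], ⟨[], rfl⟩, ?_⟩
      exact (norm_pathL h []).ge
    · rintro _ x ⟨v, rfl⟩
      exact (norm_pathL h v).le
    · rintro _ x ⟨v, rfl⟩ _ F hF ε hε
      obtain ⟨n, -, w, hw, hwclose⟩ := hF.exists_close_of_weakNull (weakNull_incrE h v) hε 0
      refine ⟨incrE h v n, w, hw, hwclose, (norm_incrE h v n).ge, n :: v, ?_⟩
      show pathE h v + (pathE h (n :: v) - pathE h v) = pathE h (n :: v)
      abel

end Crest.Agent.S0169
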