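-- Statement S0209 (row 149).  See Crest/Agent/Lib/PT for the proof.
import Crest.Statements.S0209
import Crest.Agent.Lib.PT.Wrap

set_option autoImplicit false
open Crest Crest.ProbabilityR

namespace Crest.Agent.S0209

/-- There is a bounded continuous stable radial pair potential in three-space (energy of `N` particles `≥ -B N`) with `φ(r)` at most `C r^(-3-1/32)` in size for `r ≥ 1`, an open density interval centred at `5p/3`, `p > 0` the unit-separation packing density (`packingNumber L / L^3 → p`), and one `β_c ∈ [7/8, 9/8]` such that at each `ρ` in it the free energy per volume `-lim_L log Z_{[0,L]^3, ⌊ρL^3⌋}(β)/(β L^3)` exists for `β > 0`, with one-sided `β`-derivatives at `β_c`, left above right. -/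
theorem result :
    ∃ φ : ℝ → ℝ, Continuous φ ∧ (∃ M : ℝ, ∀ r : ℝ, |φ r| ≤ M) ∧
      (∃ B : ℝ, ∀ (N : ℕ) (x : Fin N → Crest.ProbabilityR.Continuum.Pt), -B * N ≤ Crest.ProbabilityR.Continuum.energy φ x) ∧
      (∃ C : ℝ, ∀ r : ℝ, 1 ≤ r → |φ r| ≤ C * r ^ (-(3 + 1 / 32 : ℝ))) ∧
      ∃ p η βc : ℝ, 0 < p ∧
        Filter.Tendsto (fun L : ℝ => (Crest.ProbabilityR.Continuum.packingNumber L : ℝ) / L ^ 3)
          Filter.atTop (nhds p) ∧
        0 < η ∧ η ≤ 5 * p / 3 ∧ 7 / 8 ≤ βc ∧ βc ≤ 9 / 8 ∧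
        ∃ f : ℝ → ℝ → ℝ,
          (∀ ρ : ℝ, 5 * p / 3 - η < ρ → ρ < 5 * p / 3 + η → ∀ β : ℝ, 0 < β →
            Filter.Tendsto (fun L : ℝ => -(1 / (β * L ^ 3)) *
                Real.log (Crest.ProbabilityR.Continuum.partitionFn φ L ⌊ρ * L ^ 3⌋₊ β))
              Filter.atTop (nhds (f β ρ))) ∧
          (∀ ρ : ℝ, 5 * p / 3 - η < ρ → ρ < 5 * p / 3 + η → ∃ Dl Dr : ℝ,
            HasDerivWithinAt (fun β => f β ρ) Dl (Set.Iio βc) βc ∧
            HasDerivWithinAt (fun β => f β ρ) Dr (Set.Ioi βc) βc ∧ Dr < Dl) := by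
  open Crest.Agent.Lib.PT Crest.ProbabilityR.Continuum in
  obtain ⟨p, A0, d, w, η, Jt, βc, Cd, J, R, hp1, hp6, hpack, hψ, hT, hA0, hR0, hCd, hdecay, hβc, hkink⟩ :=
    main_kink 0 le_rfl
  have hadm := wrap_adm hψ hT hA0
  have hp0 : 0 < p := by linarith
  set φinf : ℝ → ℝ := fun r => psi A0 d w η 0 r - Vtail J R 0 r with hφinf
  have hV0 := Vtail_nonneg hT 0
  have hVJ := Vtail_le_Jt hT
  have hψ0 := psi_nonneg hψ
  have hψA := psi_le_A0 hψ
  refine ⟨fun r => βc * φinf r, ?_, ?_, ⟨βc * (16000 * Jt), wrap_stable hadm hβc⟩, ?_,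
    p, p / 10, 1, hp0, hpack, by positivity, by linarith, by norm_num, by norm_num,
    fun β ρ => fe φinf (β * βc) ρ / β, ?_, ?_⟩
  · exact continuous_const.mul ((psi_continuous hψ).sub (Vtail_continuous hT 0))
  · refine ⟨βc * (A0 + Jt), fun r => ?_⟩
    have h0 := hV0 r
    have h1 := hVJ r
    have h2 := hψ0 r
    have h3 := hψA r
    rw [abs_mul, abs_of_pos hβc]
    apply mul_le_mul_of_nonneg_left _ hβc.le
    rw [abs_le]
    simp only [hφinf]
    constructor <;> linarith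
  · refine ⟨βc * (16 * A0 + Cd), fun r hr => ?_⟩
    have hr0 : 0 < r := by linarith
    have hrp : 0 < r ^ (-(3 + 1 / 32 : ℝ)) := Real.rpow_pos_of_pos hr0 _
    have h0 := hV0 r
    have h1 := hdecay r hr0
    have h2 := hψ0 r
    have hA01 := hψ.A0_ge
    have h3 : psi A0 d w η 0 r ≤ 16 * A0 * r ^ (-(3 + 1 / 32 : ℝ)) := by
      by_cases hr2 : 1 + η ≤ r
      · rw [psi_eq_zero hψ hr2]
        positivity
      · have hr3 : r ≤ 2 := by have := hψ.η_le; linarith
        have h4 : (1 : ℝ) / 16 ≤ r ^ (-(3 + 1 / 32 : ℝ)) := by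
          have h5 : r ^ (3 + 1 / 32 : ℝ) ≤ 2 ^ (3 + 1 / 32 : ℝ) :=
            Real.rpow_le_rpow hr0.le hr3 (by norm_num)
          have h6 : (2 : ℝ) ^ (3 + 1 / 32 : ℝ) ≤ 2 ^ (4 : ℝ) :=
            Real.rpow_le_rpow_of_exponent_le (by norm_num) (by norm_num)
          have h7 : (2 : ℝ) ^ (4 : ℝ) = 16 := by norm_num
          rw [Real.rpow_neg hr0.le, one_div]
          apply inv_anti₀ (Real.rpow_pos_of_pos hr0 _)
          linarith
        have h8 := hψA r
        nlinarith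
    rw [abs_mul, abs_of_pos hβc, mul_assoc]
    apply mul_le_mul_of_nonneg_left _ hβc.le
    rw [abs_le]
    simp only [hφinf]
    constructor <;> nlinarith
  · intro ρ h1 _ β hβ
    have hρ : 0 ≤ ρ := by linarith
    exact wrap_limit hadm hβc hβ hρ
  · intro ρ h1 h2
    exact wrap_kink hβc (hkink ρ (by linarith) (by linarith))

end Crest.Agent.S0209
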