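-- Statement S0210 (row 149).  See Crest/Agent/Lib/PT for the proof.
import Crest.Statements.S0210
import Crest.Agent.Lib.PT.Wrap

set_option autoImplicit false
open Crest Crest.ProbabilityR

namespace Crest.Agent.S0210

/-- There is a measurable radial pair potential in three-space, finite and locally bounded at positive distances, tending to `+∞` at `0`, below `-a < 0` on an interval, with `r² φ(r)` integrable at large `r`, `r³ φ(r) → 0`, and stable on configurations of distinct points, whose canonical free energy per volume `-lim_L log Z_{[0,L]^3, ⌊ρL^3⌋}(β)/(β L^3)` exists for all `β, ρ > 0` and has, on some open density interval, at one `β_c ∈ (1/2, 3/2)` a left `β`-derivative strictly above the right. -/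
theorem result :
    ∃ φ : ℝ → ℝ, Measurable φ ∧
      (∀ a b : ℝ, 0 < a → a ≤ b → ∃ M : ℝ, ∀ r : ℝ, a ≤ r → r ≤ b → |φ r| ≤ M) ∧
      Filter.Tendsto φ (nhdsWithin 0 (Set.Ioi 0)) Filter.atTop ∧
      (∃ r₁ r₂ a : ℝ, 0 < r₁ ∧ r₁ < r₂ ∧ 0 < a ∧ ∀ r : ℝ, r₁ ≤ r → r ≤ r₂ → φ r ≤ -a) ∧
      (∃ R : ℝ, 0 < R ∧ MeasureTheory.IntegrableOn (fun r : ℝ => r ^ 2 * |φ r|) (Set.Ioi R)) ∧
      Filter.Tendsto (fun r : ℝ => r ^ 3 * φ r) Filter.atTop (nhds 0) ∧
      (∃ B : ℝ, ∀ (N : ℕ) (x : Fin N → Crest.ProbabilityR.Continuum.Pt), Function.Injective x →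
        -B * N ≤ Crest.ProbabilityR.Continuum.energy φ x) ∧
      ∃ f : ℝ → ℝ → ℝ,
        (∀ ρ : ℝ, 0 < ρ → ∀ β : ℝ, 0 < β →
          Filter.Tendsto (fun L : ℝ => -(1 / (β * L ^ 3)) *
              Real.log (Crest.ProbabilityR.Continuum.partitionFn φ L ⌊ρ * L ^ 3⌋₊ β))
            Filter.atTop (nhds (f β ρ))) ∧
        ∃ ρ₁ ρ₂ βc : ℝ, 0 ≤ ρ₁ ∧ ρ₁ < ρ₂ ∧ 1 / 2 < βc ∧ βc < 3 / 2 ∧
          ∀ ρ : ℝ, ρ₁ < ρ → ρ < ρ₂ → ∃ Dl Dr : ℝ,
            HasDerivWithinAt (fun β => f β ρ) Dl (Set.Iio βc) βc ∧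
            HasDerivWithinAt (fun β => f β ρ) Dr (Set.Ioi βc) βc ∧ Dr < Dl := by
  open Crest.Agent.Lib.PT Crest.ProbabilityR.Continuum Set Filter Topology MeasureTheory in
  obtain ⟨p, A0, d, w, η, Jt, βc, Cd, J, R, hp1, hp6, hpack, hψ, hT, hA0, hR0, hCd, hdecay, hβc, hkink⟩ :=
    main_kink 1 zero_le_one
  have hadm := wrap_adm hψ hT hA0
  have hp0 : 0 < p := by linarith
  set φinf : ℝ → ℝ := fun r => psi A0 d w η 1 r - Vtail J R 0 r with hφinf
  have hV0 := Vtail_nonneg hT 0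
  have hVJ := Vtail_le_Jt hT
  have hψ0 := psi_nonneg hψ
  have hψm := psi_measurable hψ
  have hVc := Vtail_continuous hT 0
  have hJt0 : 0 ≤ Jt := (hV0 0).trans (hVJ 0)
  -- beyond `2` the repulsive part vanishes
  have hψ2 : ∀ r, 2 ≤ r → psi A0 d w η 1 r = 0 := fun r hr =>
    psi_eq_zero hψ (by have := hψ.η_le; linarith)
  have hφ2 : ∀ r, 2 ≤ r → |βc * φinf r| ≤ βc * Cd * r ^ (-(3 + 1 / 32 : ℝ)) := by
    intro r hr
    have hr0 : 0 < r := by linarith
    simp only [hφinf]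
    rw [hψ2 r hr, zero_sub, abs_mul, abs_of_pos hβc, abs_neg, abs_of_nonneg (hV0 r), mul_assoc]
    exact mul_le_mul_of_nonneg_left (hdecay r hr0) hβc.le
  refine ⟨fun r => βc * φinf r, ?_, ?_, ?_, ?_, ?_, ?_,
    ⟨βc * (16000 * Jt), fun N x _ => wrap_stable hadm hβc N x⟩,
    fun β ρ => fe φinf (β * βc) ρ / β, ?_,
    p + 3 * (p / 1000) / 2, 19 * p / 10, 1, by positivity, by linarith, by norm_num, by norm_num, ?_⟩
  · exact (hψm.sub hVc.measurable).const_mul βc
  · intro a b ha _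
    refine ⟨βc * (A0 + 1 / a + Jt), fun r hr _ => ?_⟩
    have h0 := hV0 r
    have h1 := hVJ r
    have h2 := hψ0 r
    have h3 := psi_bdd hψ ha hr
    have hA01 := hψ.A0_ge
    have ha' : 0 < 1 / a := by positivity
    rw [abs_mul, abs_of_pos hβc]
    apply mul_le_mul_of_nonneg_left _ hβc.le
    rw [abs_le]
    simp only [hφinf]
    constructor <;> linarith
  · have h1 : Tendsto (fun r => βc * (psi A0 d w η 1 r - Jt)) (𝓝[>] 0) atTop :=
      Tendsto.const_mul_atTop hβc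
        (tendsto_atTop_add_const_right _ _ (psi_tendsto_atTop hψ zero_lt_one))
    refine tendsto_atTop_mono (fun r => ?_) h1
    apply mul_le_mul_of_nonneg_left _ hβc.le
    simp only [hφinf]
    linarith [hVJ r]
  · -- the attractive interval `[3,4]`
    have hR00 : 0 < R 0 := by linarith
    have hcont := vk_continuous (J 0) hR00
    obtain ⟨r₀, hr₀, hmin⟩ := (isCompact_Icc (a := (3 : ℝ)) (b := 4)).exists_isMinOn
      (nonempty_Icc.mpr (by norm_num)) hcont.continuousOn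
    have hpos : 0 < vk (J 0) (R 0) r₀ := by
      apply vk_pos (hT.J_pos 0) hR00
      rw [abs_of_nonneg (by linarith [hr₀.1])]
      linarith [hr₀.2]
    refine ⟨3, 4, βc * vk (J 0) (R 0) r₀, by norm_num, by norm_num, mul_pos hβc hpos, fun r h3 h4 => ?_⟩
    have h5 : vk (J 0) (R 0) r₀ ≤ vk (J 0) (R 0) r := hmin ⟨h3, h4⟩
    have h6 := vk_le_Vtail hT 0 r
    have h7 := hψ2 r (by linarith)
    simp only [hφinf]
    rw [h7]
    nlinarith
  · refine ⟨2, by norm_num, ?_⟩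
    have hint : IntegrableOn (fun r : ℝ => βc * Cd * r ^ (-(1 + 1 / 32 : ℝ))) (Ioi 2) :=
      (integrableOn_Ioi_rpow_of_lt (by norm_num) (by norm_num)).const_mul _
    refine hint.mono' ?_ ?_
    · apply Measurable.aestronglyMeasurable
      exact (measurable_id.pow_const 2).mul ((hψm.sub hVc.measurable).const_mul βc).abs
    · refine (ae_restrict_iff' measurableSet_Ioi).mpr (Eventually.of_forall fun r hr => ?_)
      have hr2 : 2 < r := hr
      have hr0 : 0 < r := by linarith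
      have h1 := hφ2 r hr2.le
      rw [Real.norm_eq_abs, abs_mul, abs_abs, abs_of_pos (pow_pos hr0 2)]
      have e : r ^ (-(1 + 1 / 32 : ℝ)) = r ^ 2 * r ^ (-(3 + 1 / 32 : ℝ)) := by
        rw [← Real.rpow_natCast r 2, ← Real.rpow_add hr0]
        congr 1
        norm_num
      rw [e]
      calc r ^ 2 * |βc * φinf r| ≤ r ^ 2 * (βc * Cd * r ^ (-(3 + 1 / 32 : ℝ))) :=
            mul_le_mul_of_nonneg_left h1 (by positivity)
        _ = βc * Cd * (r ^ 2 * r ^ (-(3 + 1 / 32 : ℝ))) := by ring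
  · have hlim : Tendsto (fun r : ℝ => βc * Cd * r ^ (-(1 / 32 : ℝ))) atTop (𝓝 0) := by
      have := (tendsto_rpow_neg_atTop (y := (1 / 32 : ℝ)) (by norm_num)).const_mul (βc * Cd)
      simpa using this
    refine squeeze_zero_norm' ?_ hlim
    filter_upwards [eventually_ge_atTop (2 : ℝ)] with r hr
    have hr0 : 0 < r := by linarith
    have h1 := hφ2 r hr
    rw [Real.norm_eq_abs, abs_mul, abs_of_pos (pow_pos hr0 3)]
    have e : r ^ (-(1 / 32 : ℝ)) = r ^ 3 * r ^ (-(3 + 1 / 32 : ℝ)) := by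
      rw [← Real.rpow_natCast r 3, ← Real.rpow_add hr0]
      congr 1
      norm_num
    rw [e]
    calc r ^ 3 * |βc * φinf r| ≤ r ^ 3 * (βc * Cd * r ^ (-(3 + 1 / 32 : ℝ))) :=
          mul_le_mul_of_nonneg_left h1 (by positivity)
      _ = βc * Cd * (r ^ 3 * r ^ (-(3 + 1 / 32 : ℝ))) := by ring
  · intro ρ hρ β hβ
    exact wrap_limit hadm hβc hβ hρ.le
  · intro ρ h1 h2
    exact wrap_kink hβc (hkink ρ h1 h2)

end Crest.Agent.S0210
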