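-- Statement S0222 (row 155).
import Crest.Statements.S0222
import Crest.Agent.Lib.Thorp.FinalGlue
import Crest.Agent.Lib.Thorp.BandFinal
import Crest.Agent.Lib.Thorp.H2

set_option autoImplicit false
open Crest Crest.ProbabilityR

namespace Crest.Agent.S0222

/-- Shuffle a deck of `n = 2 * 2 ^ d` cards `1600 * (d + 1)` times, that is `1600 * log₂ n` times. The total variation distance between the law of the resulting arrangement of the whole deck and the uniform law on all arrangements tends to `0` as `d → ∞`. -/
theorem result :
    Filter.Tendsto (fun d : ℕ => Crest.ProbabilityR.Shuffle.tvFromUniform (2 ^ d) (1600 * (d + 1)))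
      Filter.atTop (nhds 0) :=
  Crest.Agent.Lib.Thorp.Sec.S0222_of_moment_band Crest.Agent.Lib.Thorp.H2.moment_bound
    Crest.Agent.Lib.Thorp.Band.hBand

end Crest.Agent.S0222
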