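import Crest.Statements.S0223
import Crest.Agent.Lib.Thorp.Basic
-- import your own Crest.Agent.* helpers here

set_option autoImplicit false
open Crest Crest.ProbabilityR

namespace Crest.Agent.S0223

open Crest.ProbabilityR.Shuffle

lemma stepPos_injective (m : ℕ) (c : Fin m → Bool) : Function.Injective (stepPos m c) := by
  intro x y h
  have hv : (stepPos m c x).val = (stepPos m c y).val := congrArg Fin.val h
  simp only [stepPos] at hv
  have hmx : 0 < m := by have := x.isLt; omega
  have hx1 : x.val % m < m := Nat.mod_lt _ hmx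
  have hy1 : y.val % m < m := Nat.mod_lt _ hmx
  -- residues agree
  have hres : x.val % m = y.val % m := by
    split_ifs at hv <;> omega
  have hb : (xor (decide (m ≤ x.val)) (c ⟨x.val % m, hx1⟩) = true) ↔
      (xor (decide (m ≤ y.val)) (c ⟨y.val % m, hy1⟩) = true) := by
    by_cases h1 : xor (decide (m ≤ x.val)) (c ⟨x.val % m, hx1⟩) = true <;>
      by_cases h2 : xor (decide (m ≤ y.val)) (c ⟨y.val % m, hy1⟩) = true <;>
      simp only [h1, h2, if_true, if_false] at hv ⊢ <;> first | omega | simp_all
  have hc : c ⟨x.val % m, hx1⟩ = c ⟨y.val % m, hy1⟩ := by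
    congr 1
    exact Fin.ext hres
  rw [hc] at hb
  have hle : m ≤ x.val ↔ m ≤ y.val := by
    by_cases h3 : m ≤ x.val <;> by_cases h4 : m ≤ y.val <;>
      first
        | exact iff_of_true h3 h4
        | exact iff_of_false h3 h4
        | (exfalso; cases hcc : c ⟨y.val % m, hy1⟩ <;> simp_all)
  apply Fin.ext
  have hxl := x.isLt
  have hyl := y.isLt
  have hxm : x.val = x.val % m + m * (x.val / m) := (Nat.mod_add_div _ _).symm
  have hym : y.val = y.val % m + m * (y.val / m) := (Nat.mod_add_div _ _).symm
  by_cases h3 : m ≤ x.val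
  · have h4 := hle.mp h3
    have e1 : x.val - m < m := by omega
    have e2 : y.val - m < m := by omega
    have e3 : x.val % m = x.val - m := by
      conv_lhs => rw [show x.val = (x.val - m) + m by omega]
      simp [Nat.mod_eq_of_lt e1]
    have e4 : y.val % m = y.val - m := by
      conv_lhs => rw [show y.val = (y.val - m) + m by omega]
      simp [Nat.mod_eq_of_lt e2]
    omega
  · have h4 : ¬ m ≤ y.val := fun h => h3 (hle.mpr h)
    have e3 : x.val % m = x.val := Nat.mod_eq_of_lt (by omega)
    have e4 : y.val % m = y.val := Nat.mod_eq_of_lt (by omega)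
    omega

lemma iterPos_injective (m : ℕ) :
    ∀ (t : ℕ) (cs : Fin t → Fin m → Bool), Function.Injective (iterPos m t cs)
  | 0, _ => fun _ _ h => h
  | t + 1, cs => by
    intro x y h
    simp only [iterPos] at h
    exact iterPos_injective m t _ (stepPos_injective m _ h)

lemma iterPos_bijective (m t : ℕ) (cs : Fin t → Fin m → Bool) :
    Function.Bijective (iterPos m t cs) :=
  Finite.injective_iff_bijective.mp (iterPos_injective m t cs)

/-- The general form, for any half-deck size. -/
theorem general (m t : ℕ) :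
    1 - (2 : ℝ) ^ (m * t) / ((2 * m).factorial : ℝ) ≤ tvFromUniform m t := by
  classical
  set Ω := (Fin t → Fin m → Bool) with hΩ
  have hcardΩ : Fintype.card Ω = 2 ^ (m * t) := by
    simp [hΩ, Fintype.card_bool, Fintype.card_fin, pow_mul]
  set perm : Ω → Equiv.Perm (Fin (2 * m)) := fun cs => Equiv.ofBijective _ (iterPos_bijective m t cs)
    with hperm
  set P : Equiv.Perm (Fin (2 * m)) → ℝ :=
    fun g => Crest.FinProb.uniformProb {cs : Ω | iterPos m t cs = ⇑g} with hP
  have hPg : ∀ g, P g = ((Finset.univ.filter (fun cs : Ω => perm cs = g)).card : ℝ) /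
      (Fintype.card Ω : ℝ) := by
    intro g
    simp only [hP, Crest.FinProb.uniformProb]
    congr 2
    apply congrArg Finset.card
    ext cs
    simp only [Finset.mem_filter, Finset.mem_univ, true_and, Set.mem_ofPred_eq]
    constructor
    · intro h; apply Equiv.ext; intro x; simp only [hperm, Equiv.ofBijective_apply]; exact congrFun h x
    · intro h; rw [← h]; rfl
  have hΩpos : (0 : ℝ) < Fintype.card Ω := by
    rw [hcardΩ]; positivity
  have hPnonneg : ∀ g, 0 ≤ P g := fun g => by
    rw [hPg]; positivity
  have hPsum : ∑ g, P g = 1 := by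
    simp_rw [hPg]
    rw [← Finset.sum_div]
    rw [← Nat.cast_sum]
    rw [← Finset.card_eq_sum_card_fiberwise (f := perm) (s := Finset.univ) (t := Finset.univ)
      (fun _ _ => Finset.mem_coe.mpr (Finset.mem_univ _))]
    rw [Finset.card_univ]
    exact div_self (ne_of_gt hΩpos)
  set N : ℝ := ((2 * m).factorial : ℝ) with hN
  have hNpos : 0 < N := by rw [hN]; positivity
  set S : Finset (Equiv.Perm (Fin (2 * m))) := Finset.univ.image perm with hS
  have hScard : (S.card : ℝ) ≤ (2 : ℝ) ^ (m * t) := by
    have : S.card ≤ Fintype.card Ω := by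
      rw [hS]; exact Finset.card_image_le.trans (by simp)
    rw [hcardΩ] at this
    exact_mod_cast this
  have hPzero : ∀ g, g ∉ S → P g = 0 := by
    intro g hg
    rw [hPg]
    have : Finset.univ.filter (fun cs : Ω => perm cs = g) = ∅ := by
      apply Finset.filter_eq_empty_iff.mpr
      intro cs _ h
      apply hg
      rw [hS]
      exact Finset.mem_image.mpr ⟨cs, Finset.mem_univ _, h⟩
    rw [this]; simp
  have hcardPerm : (Fintype.card (Equiv.Perm (Fin (2 * m))) : ℝ) = N := by
    rw [Fintype.card_perm, Fintype.card_fin]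
  -- the pointwise lower bound
  have hpt : ∀ g, (if g ∈ S then P g - 1 / N else 1 / N) ≤ |P g - 1 / N| := by
    intro g
    split_ifs with hg
    · exact le_abs_self _
    · rw [hPzero g hg]; simp [abs_of_pos, hNpos]
  have hsum : ∑ g, (if g ∈ S then P g - 1 / N else 1 / N) ≤ ∑ g, |P g - 1 / N| :=
    Finset.sum_le_sum (fun g _ => hpt g)
  have hval : ∑ g, (if g ∈ S then P g - 1 / N else 1 / N) = 2 - 2 * (S.card : ℝ) / N := by
    have h1 : ∑ g, (if g ∈ S then P g - 1 / N else 1 / N)
        = ∑ g, (if g ∈ S then P g else 0) + ∑ g, (if g ∈ S then - (1 / N) else 1 / N) := by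
      rw [← Finset.sum_add_distrib]
      apply Finset.sum_congr rfl
      intro g _
      split_ifs <;> ring
    have h2 : ∑ g, (if g ∈ S then P g else 0) = 1 := by
      rw [← hPsum]
      apply Finset.sum_congr rfl
      intro g _
      split_ifs with hg
      · rfl
      · exact (hPzero g hg).symm
    have h3 : ∑ g, (if g ∈ S then - (1 / N) else 1 / N) = 1 - 2 * (S.card : ℝ) / N := by
      have : ∀ g, (if g ∈ S then - (1 / N) else 1 / N)
          = 1 / N + (if g ∈ S then - (2 / N) else 0) := by
        intro g; split_ifs <;> ring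
      simp_rw [this]
      rw [Finset.sum_add_distrib, Finset.sum_const, Finset.card_univ, nsmul_eq_mul, hcardPerm]
      rw [Finset.sum_ite_mem, Finset.univ_inter, Finset.sum_const, nsmul_eq_mul]
      field_simp
      ring
    rw [h1, h2, h3]; ring
  unfold tvFromUniform
  have : (2 : ℝ) ^ (m * t) / N ≥ (S.card : ℝ) / N := by
    exact div_le_div_of_nonneg_right hScard hNpos.le
  change 1 - (2 : ℝ) ^ (m * t) / N ≤ (1 / 2) * ∑ g, |P g - 1 / N|
  have h4 : 2 - 2 * (S.card : ℝ) / N ≤ ∑ g, |P g - 1 / N| := hval ▸ hsum
  have h5 : 2 * (S.card : ℝ) / N = 2 * ((S.card : ℝ) / N) := by ring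
  linarith

/-- For a deck of `2 * 2 ^ d` cards and every number `t` of shuffles, the total variation distance between the law of the arrangement of the deck and the uniform law on all arrangements is at least `1 - 2 ^ (2 ^ d * t) / (2 * 2 ^ d)!`. -/
theorem result (d t : ℕ) :
    1 - (2 : ℝ) ^ (2 ^ d * t) / ((2 * 2 ^ d).factorial : ℝ)
      ≤ Crest.ProbabilityR.Shuffle.tvFromUniform (2 ^ d) t :=
  general (2 ^ d) t

end Crest.Agent.S0223
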