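import Crest.Statements.S0241
import Crest.Agent.Lib.IsingFIID.CriticalFinal

set_option autoImplicit false
universe u
open Crest Crest.ProbabilityR

namespace Crest.Agent.S0241

open Crest.Agent.Lib.IsingFIID in
/-- Let `d ≥ 3`, `β ≥ 0`, `tanh β ≤ (d-1)^(-1/2)`. On every connected acyclic graph with all degrees `d` (the infinite `d`-regular tree) some measurable map from `[0,1]^V` to spin configurations commutes with every automorphism on every input and, fed independent uniform labels, outputs the free zero-field Ising state: each spin pattern on a finite connected vertex set `S` has probability `1/2` times the product over edges inside `S` of `(1 ± tanh β)/2`, with `+` for agreeing endpoints. -/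
theorem result (d : ℕ) (hd : 3 ≤ d) (β : ℝ)
    (hβ : 0 ≤ β) (hθ : Real.tanh β ≤ ((d : ℝ) - 1) ^ (-(1 / 2 : ℝ))) (V : Type u)
    (G : SimpleGraph V) [G.LocallyFinite] (hT : G.IsTree) (hreg : G.IsRegularOfDegree d) :
    ∃ Φ : (V → unitInterval) → (V → Bool),
      Measurable Φ ∧
      (∀ (g : G ≃g G) (x : V → unitInterval), Φ (x ∘ ⇑g) = Φ x ∘ ⇑g) ∧
      ∀ (S : Finset V) (η : V → Bool), (G.induce (S : Set V)).Connected →
        (Crest.ProbabilityR.Labels.labelMeasure V).map Φ {σ | ∀ v ∈ S, σ v = η v} =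
          ENNReal.ofReal (Crest.ProbabilityR.TreeIsing.isingWeight G (Real.tanh β) S η) := by
  obtain ⟨D, rfl⟩ : ∃ D, d = D + 1 := ⟨d - 1, by omega⟩
  have hG : RegTree G D := by
    refine ⟨hT, ?_, by omega⟩
    intro inst v
    convert hreg v
  have hθ0 : 0 ≤ Real.tanh β := by
    rw [Real.tanh_eq_sinh_div_cosh]
    exact div_nonneg (Real.sinh_nonneg_iff.mpr hβ) (Real.cosh_pos β).le
  have hDpos : (0 : ℝ) < D := by
    have : 2 ≤ D := by omega
    positivity
  have hD1 : ((D + 1 : ℕ) : ℝ) - 1 = D := by push_cast; ring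
  rw [hD1] at hθ
  have hle : (D : ℝ) * Real.tanh β ^ 2 ≤ 1 := by
    have h2 : Real.tanh β ^ 2 ≤ ((D : ℝ) ^ (-(1 / 2 : ℝ))) ^ 2 := by gcongr
    have h3 : ((D : ℝ) ^ (-(1 / 2 : ℝ))) ^ 2 = (D : ℝ)⁻¹ := by
      rw [← Real.rpow_natCast, ← Real.rpow_mul hDpos.le]
      norm_num
      exact Real.rpow_neg_one _
    rw [h3] at h2
    calc (D : ℝ) * Real.tanh β ^ 2 ≤ D * (D : ℝ)⁻¹ := by gcongr
      _ = 1 := mul_inv_cancel₀ hDpos.ne'
  rcases hle.lt_or_eq with h | h
  · exact strict_factor hG hθ0 h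
  · exact critical_factor hG hθ0 h

end Crest.Agent.S0241
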