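-- Statement S0255 (row 168): invariant strongly Rayleigh laws on a countable group are factors of iid.
-- Assembly from `Crest.Agent.Lib.SRF.core_law` (see `Crest/Agent/Lib/SRF/`).
import Crest.Statements.S0255
import Crest.Agent.Lib.SRF.Core
import Crest.Agent.Lib.SRF.Decode
import Crest.Agent.Lib.SRF.GroupWin

set_option autoImplicit false
open Crest Crest.ProbabilityR

namespace Crest.Agent.S0255

open MeasureTheory Crest.Agent.Lib.SRF Crest.Agent.Lib.SRF.Decode Crest.Agent.Lib.SRF.GroupWin

section Joint

variable {Γ : Type*}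

/-- The sampler as a joint function of the order and of the noise. -/
noncomputable def jointS (m : Γ → ℕ → (Γ → ℝ) → ℝ)
    (q : (Γ → unitInterval) × (Γ × ℕ → unitInterval)) : Γ → Bool :=
  sampler m (fun v => ((q.1 v : unitInterval) : ℝ)) q.2

theorem measurable_jointS (m : Γ → ℕ → (Γ → ℝ) → ℝ) (hm : ∀ e n, Measurable (m e n)) :
    Measurable (jointS m) := by
  refine measurable_pi_lambda _ fun e => ?_
  have h1 : Measurable (fun q : (Γ → unitInterval) × (Γ × ℕ → unitInterval) =>
      solve m (fun v => ((q.1 v : unitInterval) : ℝ)) (fun i => ((q.2 i : unitInterval) : ℝ))) := by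
    refine measurable_pi_lambda _ fun i => ?_
    have := measurable_solve (P := Unit) (fun _ => m) (fun e n => (hm e n).comp measurable_snd) i
    have h2 : Measurable (fun q : (Γ → unitInterval) × (Γ × ℕ → unitInterval) =>
        (((), (fun v => ((q.1 v : unitInterval) : ℝ)), (fun i => ((q.2 i : unitInterval) : ℝ))) :
          Unit × (Γ → ℝ) × (Γ × ℕ → ℝ))) := by
      refine measurable_const.prodMk (Measurable.prodMk ?_ ?_)
      · exact measurable_pi_lambda _ fun j =>
          measurable_subtype_coe.comp ((measurable_pi_apply j).comp measurable_fst)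
      · exact measurable_pi_lambda _ fun j =>
          measurable_subtype_coe.comp ((measurable_pi_apply j).comp measurable_snd)
    have h3 := this.comp h2
    exact h3
  have h4 := (measurable_est e).comp h1
  exact h4

theorem map_jointS [Countable Γ] {ν : Measure (Γ → Bool)} [IsProbabilityMeasure ν]
    {W : Γ → ℕ → Finset Γ} {m : Γ → ℕ → (Γ → ℝ) → ℝ} (hW : Windows ν W m) :
    ((unif Γ).prod (unif (Γ × ℕ))).map (jointS m) = ν := by
  have hm := hW.measurable_m
  have hJ := measurable_jointS m hm
  refine Measure.ext fun A hA => ?_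
  rw [Measure.map_apply hJ hA, Measure.prod_apply (hJ hA)]
  have key : ∀ᵐ a ∂(unif Γ), (unif (Γ × ℕ)) (Prod.mk a ⁻¹' (jointS m ⁻¹' A)) = ν A := by
    filter_upwards [ae_injective] with a ha
    have h2 := core_law hW _ ha
    have h3 := measurable_sampler m hm (fun v => ((a v : unitInterval) : ℝ))
    rw [← h2, Measure.map_apply h3 hA]
    rfl
  rw [lintegral_congr_ae key]
  simp

end Joint

/-- For a countable group `Γ` and a strongly Rayleigh probability law `ν` on binary configurations `Γ → Bool` that is invariant under every left shift `a ↦ (h ↦ a (g⁻¹ h))`, there is a measurable map from independent uniform labels indexed by `Γ` to configurations that commutes with every left shift and pushes the label law forward to `ν`. -/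
theorem result (Γ : Type*) [Group Γ]
    [Countable Γ] (ν : MeasureTheory.Measure (Γ → Bool)) [MeasureTheory.IsProbabilityMeasure ν]
    (hsr : Crest.ProbabilityR.StronglyRayleigh.IsStronglyRayleigh ν)
    (hinv : Crest.ProbabilityR.StronglyRayleigh.IsShiftInvariant ν) :
    ∃ Φ : (Γ → unitInterval) → (Γ → Bool), Measurable Φ ∧
      (∀ (g : Γ) (u : Γ → unitInterval),
        Φ (Crest.ProbabilityR.StronglyRayleigh.leftShift g u) =
          Crest.ProbabilityR.StronglyRayleigh.leftShift g (Φ u)) ∧
      (Crest.ProbabilityR.Labels.labelMeasure Γ).map Φ = ν := by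
  obtain ⟨f, hf⟩ := exists_surjective_nat Γ
  have hW := gWindows hsr hf
  have hJ := measurable_jointS (gm ν f) hW.measurable_m
  refine ⟨fun u => jointS (gm ν f) (decode u), ?_, ?_, ?_⟩
  · have h4 := hJ.comp measurePreserving_decode.measurable
    exact h4
  · intro g u
    funext x
    obtain ⟨e, rfl⟩ : ∃ e, x = (Equiv.mulLeft g) e := ⟨g⁻¹ * x, by simp⟩
    have hrhs : Crest.ProbabilityR.StronglyRayleigh.leftShift g
        (jointS (gm ν f) (decode u)) ((Equiv.mulLeft g) e) = jointS (gm ν f) (decode u) e := by
      simp [Crest.ProbabilityR.StronglyRayleigh.leftShift]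
    rw [hrhs]
    refine est_equiv (Equiv.mulLeft g) _ _ (fun e' k => ?_) e
    exact solve_equiv (Equiv.mulLeft g) (gm ν f) (gm ν f) (gm_equiv hinv f g)
      (fun v => (((decode u).1 v : unitInterval) : ℝ))
      (fun i => (((decode u).2 i : unitInterval) : ℝ)) e' k
  · have h1 : Crest.ProbabilityR.Labels.labelMeasure Γ = unif Γ := rfl
    have hd := measurePreserving_decode (A := Γ)
    rw [h1]
    conv_rhs => rw [← map_jointS hW, ← hd.map_eq]
    rw [Measure.map_map hJ hd.measurable]
    rfl

end Crest.Agent.S0255
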