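-- Statement S0270 (row 180). The whole proof is the library `Crest/Agent/Lib/Kurosh/` (see BLUEPRINT.md there):
-- `Pipeline.freeze` (every stage element can be frozen) and `Top.top` (the limit of the tower of stages).
import Crest.Statements.S0270
import Crest.Agent.Lib.Kurosh.Pipeline
import Crest.Agent.Lib.Kurosh.Top

set_option autoImplicit false
open Crest Crest.AlgebraR

namespace Crest.Agent.S0270

/-- There is a countable division ring of characteristic zero that is algebraic over its centre and is generated by two of its elements as an algebra over the centre, yet is infinite-dimensional as a vector space over the centre. -/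
theorem result :
    ∃ (D : Type) (_ : DivisionRing D), Countable D ∧ CharZero D ∧
      Algebra.IsAlgebraic (Subring.center D) D ∧
      (∃ x y : D, Algebra.adjoin (Subring.center D) ({x, y} : Set D) = ⊤) ∧
      ¬ FiniteDimensional (Subring.center D) D :=
  Crest.Agent.Lib.Kurosh.Top.top Crest.Agent.Lib.Kurosh.freeze

end Crest.Agent.S0270
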