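import Crest.Statements.S0324
import Crest.Agent.Lib.TetraFinite

set_option autoImplicit false
open MeasureTheory
open scoped ENNReal
open Crest Crest.GeometryTopology Crest.GeometryTopology.Convex
open Crest.Agent.Lib.TetraArea Set

namespace Crest.Agent.S0324

/-- The regular tetrahedron in the statement is the set `Ktet` of the library. -/
private lemma Ktet_eq : convexHull ℝ {(!₂[1, 0, 0] : EuclideanSpace ℝ (Fin 3)), !₂[-1, 0, 0], !₂[0, 1, Real.sqrt 2], !₂[0, -1, Real.sqrt 2]} = Ktet := rfl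

/-- The regular tetrahedron `K` with vertices `(±1, 0, 0)`, `(0, ±1, √2)` is covered by finitely many cylinders `Bᵢ + ℝ uᵢ`, each with unit direction `uᵢ` and base `Bᵢ` a triangle (convex hull of three points) in the plane `uᵢ^⊥`, whose total base area `∑ᵢ area(Bᵢ)` is smaller, by a positive margin, than half the area of the orthogonal projection of `K` onto `v^⊥` for every unit vector `v`; areas are 2-dimensional Hausdorff measure. -/
theorem result :
    ∃ (m : ℕ) (u p q r : Fin m → EuclideanSpace ℝ (Fin 3)),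
      (∀ i, ‖u i‖ = 1) ∧
      (∀ i, inner ℝ (p i) (u i) = 0 ∧ inner ℝ (q i) (u i) = 0 ∧ inner ℝ (r i) (u i) = 0) ∧
      convexHull ℝ {!₂[1, 0, 0], !₂[-1, 0, 0], !₂[0, 1, Real.sqrt 2], !₂[0, -1, Real.sqrt 2]} ⊆
        ⋃ i, {x : EuclideanSpace ℝ (Fin 3) | ∃ b ∈ convexHull ℝ {p i, q i, r i}, ∃ t : ℝ, x = b + t • u i} ∧
      ∃ δ : ℝ, 0 < δ ∧ ∀ v : EuclideanSpace ℝ (Fin 3), ‖v‖ = 1 →
        ∑ i, (μH[(2 : ℝ)] (convexHull ℝ {p i, q i, r i})).toReal + δ ≤
          (μH[(2 : ℝ)] ((fun y => y - inner ℝ y v • v) '' convexHull ℝ {!₂[1, 0, 0], !₂[-1, 0, 0], !₂[0, 1, Real.sqrt 2], !₂[0, -1, Real.sqrt 2]})).toReal / 2 := by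
  obtain ⟨c, hc, hfac⟩ := exists_factor
  rw [Ktet_eq]
  let e := Fintype.equivFin FamIdx
  refine ⟨Fintype.card FamIdx, fun i => fU (e.symm i), fun i => fP (e.symm i), fun i => fQ (e.symm i),
    fun i => fR (e.symm i), fun i => fU_norm _, fun i => fam_inner _, ?_,
    c * (Real.sqrt 2 / 2 * (1 / 100000)), by have := sqrt2_pos; positivity, ?_⟩
  · intro X hX
    obtain ⟨j, hj⟩ := mem_iUnion.1 (fam_cover hX)
    refine mem_iUnion.2 ⟨e j, ?_⟩
    simpa using hj
  · intro v hv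
    have h1 := area_proj_Ktet_toReal_ge hv
    have h2 := fam_sum_le
    have h3 : ∑ i, (μH[(2 : ℝ)] (convexHull ℝ {fP (e.symm i), fQ (e.symm i), fR (e.symm i)})).toReal =
        c * ∑ j, (μHE[2] (convexHull ℝ {fP j, fQ j, fR j})).toReal := by
      rw [Finset.mul_sum]
      rw [← Equiv.sum_comp e.symm]
      exact Finset.sum_congr rfl (fun i _ => hfac _)
    rw [h3, hfac, projL_coe]
    have h4 : c * ∑ j, (μHE[2] (convexHull ℝ {fP j, fQ j, fR j})).toReal ≤
        c * (Real.sqrt 2 / 2 * (1 - 1 / 100000)) := mul_le_mul_of_nonneg_left h2 hc.le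
    have h5 : c * Real.sqrt 2 ≤ c * (μHE[2] (projL v '' Ktet)).toReal :=
      mul_le_mul_of_nonneg_left h1 hc.le
    nlinarith

end Crest.Agent.S0324
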