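import Crest.Statements.S0325
import Crest.Agent.Lib.TetraFinite

set_option autoImplicit false
open MeasureTheory
open scoped ENNReal
open Crest Crest.GeometryTopology Crest.GeometryTopology.Convex
open Crest.Agent.Lib.TetraArea Set

namespace Crest.Agent.S0325

/-- The regular tetrahedron in the statement is the set `Ktet` of the library. -/
private lemma Ktet_eq : convexHull ℝ {(!₂[1, 0, 0] : EuclideanSpace ℝ (Fin 3)), !₂[-1, 0, 0], !₂[0, 1, Real.sqrt 2], !₂[0, -1, Real.sqrt 2]} = Ktet := rfl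

/-- The projection along the first axis attains the minimum. -/
private lemma area_proj_e1 : μHE[2] (projL (!₂[1, 0, 0] : E3) '' Ktet) = ENNReal.ofReal (Real.sqrt 2) := by
  have hv : ‖(!₂[1, 0, 0] : E3)‖ = 1 := by
    have h : ‖(!₂[1, 0, 0] : E3)‖ ^ 2 = 1 := by
      rw [norm_sq_E3]; simp
    exact (pow_eq_one_iff_of_nonneg (norm_nonneg _) (by norm_num)).1 h
  have e : projL (!₂[1, 0, 0] : E3) V₂ = projL (!₂[1, 0, 0] : E3) V₁ := by
    simp only [projL_apply, inner_E3]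
    ext j
    fin_cases j <;> simp [V₁, V₂]
  rw [Ktet, image_projL_hull4, e, Set.insert_eq_of_mem (Set.mem_insert _ _), area_projL_triangle hv,
    det_134]
  simp only [Matrix.cons_val_zero, Matrix.cons_val_one, Matrix.cons_val]
  have hr := sqrt2_pos
  congr 1
  norm_num

/-- The unit vector of the third axis. -/
private noncomputable def e3 : E3 := !₂[0, 0, 1]

private lemma norm_e3 : ‖e3‖ = 1 := by
  have h : ‖e3‖ ^ 2 = 1 := by
    rw [norm_sq_E3]; simp [e3]
  exact (pow_eq_one_iff_of_nonneg (norm_nonneg _) (by norm_num)).1 h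

/-- A flat filler triangle with prescribed area. -/
private lemma filler_area {a : ℝ} (ha : 0 ≤ a) :
    μHE[2] (convexHull ℝ {(0 : E3), !₂[a, 0, 0], !₂[0, 1, 0]}) = ENNReal.ofReal (a / 2) := by
  rw [area_triangle, sub_zero, sub_zero, gram_eq_coords]
  simp only [Matrix.cons_val_zero, Matrix.cons_val_one, Matrix.cons_val]
  congr 1
  norm_num
  rw [Real.sqrt_sq ha]

/-- A degenerate triangle has area zero. -/
private lemma zero_area : μHE[2] (convexHull ℝ {(0 : E3), 0, 0}) = 0 := by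
  rw [area_triangle]
  simp [gram]

/-- Let K be the regular tetrahedron with vertices (±1, 0, 0), (0, ±1, √2); areas are Lebesgue-normalised 2-dimensional Hausdorff measure. (1) The least area of an orthogonal projection of K onto a plane is √2: each map y ↦ y − ⟪y, v⟫ v with ‖v‖ = 1 sends K to a set of area ≥ √2, equal for some v. (2) For every 0 < ε ≤ 5·10⁻⁴, K is covered by 2⌈2/ε²⌉ cylinders Bᵢ + ℝ uᵢ, uᵢ a unit vector, Bᵢ a triangle (convex hull of three points) in uᵢ^⊥, of total area A with ‖A/√2 − 1/2 + 13 ε²/6000‖ ≤ 2 ε⁴. -/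
theorem result :
    ((∀ v : EuclideanSpace ℝ (Fin 3), ‖v‖ = 1 →
        ENNReal.ofReal (Real.sqrt 2) ≤ μHE[2] ((fun y => y - inner ℝ y v • v) '' convexHull ℝ {!₂[1, 0, 0], !₂[-1, 0, 0], !₂[0, 1, Real.sqrt 2], !₂[0, -1, Real.sqrt 2]})) ∧
      ∃ v : EuclideanSpace ℝ (Fin 3), ‖v‖ = 1 ∧
        μHE[2] ((fun y => y - inner ℝ y v • v) '' convexHull ℝ {!₂[1, 0, 0], !₂[-1, 0, 0], !₂[0, 1, Real.sqrt 2], !₂[0, -1, Real.sqrt 2]}) = ENNReal.ofReal (Real.sqrt 2)) ∧
    ∀ ε : ℝ, 0 < ε → ε ≤ 1 / 2000 →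
      ∃ (u p q r : Fin (2 * ⌈2 / ε ^ 2⌉₊) → EuclideanSpace ℝ (Fin 3)),
        (∀ i, ‖u i‖ = 1) ∧
        (∀ i, inner ℝ (p i) (u i) = 0 ∧ inner ℝ (q i) (u i) = 0 ∧ inner ℝ (r i) (u i) = 0) ∧
        convexHull ℝ {!₂[1, 0, 0], !₂[-1, 0, 0], !₂[0, 1, Real.sqrt 2], !₂[0, -1, Real.sqrt 2]} ⊆
          ⋃ i, {x : EuclideanSpace ℝ (Fin 3) | ∃ b ∈ convexHull ℝ {p i, q i, r i}, ∃ t : ℝ, x = b + t • u i} ∧
        abs ((∑ i, (μHE[2] (convexHull ℝ ({p i, q i, r i} : Set (EuclideanSpace ℝ (Fin 3))))).toReal) / Real.sqrt 2 -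
            (1 / 2 - 13 / 6000 * ε ^ 2)) ≤ 2 * ε ^ 4 := by
  rw [Ktet_eq]
  refine ⟨⟨fun v hv => area_proj_Ktet_ge hv, !₂[1, 0, 0], ?_, area_proj_e1⟩, ?_⟩
  · have h : ‖(!₂[1, 0, 0] : E3)‖ ^ 2 = 1 := by
      rw [norm_sq_E3]; simp
    exact (pow_eq_one_iff_of_nonneg (norm_nonneg _) (by norm_num)).1 h
  intro ε hε hε2
  set m := 2 * ⌈2 / ε ^ 2⌉₊ with hm
  have hε3 : ε ^ 2 ≤ 1 / 4000000 := by
    calc ε ^ 2 ≤ (1 / 2000) ^ 2 := pow_le_pow_left₀ hε.le hε2 2
      _ = 1 / 4000000 := by norm_num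
  have hεpos : 0 < ε ^ 2 := by positivity
  have hceil : (8000000 : ℝ) ≤ 2 / ε ^ 2 := by
    rw [le_div_iff₀ hεpos]
    linarith
  have hceil2 : 8000000 ≤ ⌈2 / ε ^ 2⌉₊ := by
    have h1 : (8000000 : ℝ) ≤ (⌈2 / ε ^ 2⌉₊ : ℝ) := le_trans hceil (Nat.le_ceil _)
    exact_mod_cast h1
  have hm_ge : 2000001 ≤ m := by omega
  obtain ⟨k, hk⟩ : ∃ k, m = k + 2000001 := ⟨m - 2000001, by omega⟩
  have hcardF : Fintype.card FamIdx = 2000000 := by
    show Fintype.card (Fin gridN ⊕ Fin gridN) = _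
    rw [Fintype.card_sum, Fintype.card_fin]
    norm_num [gridN]
  let ι := Option (FamIdx ⊕ Fin k)
  have hι : Fintype.card ι = m := by
    simp only [ι, Fintype.card_option, Fintype.card_sum, Fintype.card_fin, hcardF, hk]
    omega
  let e : ι ≃ Fin m := Fintype.equivFinOfCardEq hι
  set A := ∑ j, (μHE[2] (convexHull ℝ {fP j, fQ j, fR j})).toReal with hA
  set T := 1 / 2 - 13 / 6000 * ε ^ 2 with hT
  have hr := sqrt2_pos
  set a := 2 * (T * Real.sqrt 2 - A) with ha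
  have hAle := fam_sum_le
  have ha0 : 0 ≤ a := by
    have h1 : 1 / 2 * (1 - 1 / 100000) ≤ T := by
      rw [hT]; linarith
    have h2 := mul_le_mul_of_nonneg_right h1 hr.le
    rw [ha]
    linarith
  let U : ι → E3 := fun o => o.elim e3 (Sum.elim fU (fun _ => e3))
  let P : ι → E3 := fun o => o.elim 0 (Sum.elim fP (fun _ => 0))
  let Q : ι → E3 := fun o => o.elim !₂[a, 0, 0] (Sum.elim fQ (fun _ => 0))
  let R : ι → E3 := fun o => o.elim !₂[0, 1, 0] (Sum.elim fR (fun _ => 0))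
  have hU : ∀ o, ‖U o‖ = 1 := by
    rintro (_ | j | j)
    · exact norm_e3
    · exact fU_norm j
    · exact norm_e3
  have hI : ∀ o, inner ℝ (P o) (U o) = 0 ∧ inner ℝ (Q o) (U o) = 0 ∧ inner ℝ (R o) (U o) = 0 := by
    rintro (_ | j | j)
    · simp [P, Q, R, U, inner_E3, e3]
    · exact fam_inner j
    · simp [P, Q, R, U]
  refine ⟨fun i => U (e.symm i), fun i => P (e.symm i), fun i => Q (e.symm i), fun i => R (e.symm i),
    fun i => hU _, fun i => hI _, ?_, ?_⟩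
  · intro X hX
    obtain ⟨j, hj⟩ := mem_iUnion.1 (fam_cover hX)
    refine mem_iUnion.2 ⟨e (some (Sum.inl j)), ?_⟩
    simpa [U, P, Q, R] using hj
  · have hsum : (∑ i, (μHE[2] (convexHull ℝ ({P (e.symm i), Q (e.symm i), R (e.symm i)} : Set E3))).toReal) =
        a / 2 + A := by
      rw [Equiv.sum_comp e.symm (fun o => (μHE[2] (convexHull ℝ ({P o, Q o, R o} : Set E3))).toReal)]
      rw [Fintype.sum_option, Fintype.sum_sum_type]
      have h1 : (μHE[2] (convexHull ℝ ({P none, Q none, R none} : Set E3))).toReal = a / 2 := by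
        change (μHE[2] (convexHull ℝ ({(0 : E3), !₂[a, 0, 0], !₂[0, 1, 0]} : Set E3))).toReal = a / 2
        rw [filler_area ha0, ENNReal.toReal_ofReal (div_nonneg ha0 (by norm_num))]
      have h2 : ∀ j : Fin k, (μHE[2] (convexHull ℝ ({P (some (Sum.inr j)), Q (some (Sum.inr j)),
          R (some (Sum.inr j))} : Set E3))).toReal = 0 := by
        intro j
        change (μHE[2] (convexHull ℝ ({(0 : E3), 0, 0} : Set E3))).toReal = 0
        rw [zero_area]
        rfl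
      rw [h1]
      simp only [h2, Finset.sum_const_zero, add_zero]
      rfl
    rw [hsum]
    have e1 : a / 2 + A = T * Real.sqrt 2 := by
      rw [ha]; ring
    rw [e1, mul_div_assoc, div_self hr.ne', mul_one, sub_self, abs_zero]
    positivity

end Crest.Agent.S0325
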