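import Crest.Statements.S0327
import Crest.Agent.Lib.TetraSim

set_option autoImplicit false
open MeasureTheory
open scoped ENNReal
open Crest Crest.GeometryTopology Crest.GeometryTopology.Convex
open Crest.Agent.Lib.TetraArea Set

namespace Crest.Agent.S0327

private lemma final_ineq {ι : Type*} [Fintype ι] (α x : ι → ℝ) {Pb η : ℝ} (hPb : 0 < Pb) (hη : 0 < η)
    (hα : ∀ i, 0 ≤ α i) (hx : ∀ i, Pb ≤ x i) (hs : ∑ i, α i ≤ Pb / 2 * (1 - η)) :
    ∑ i, α i / x i < 1 / 2 := by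
  calc ∑ i, α i / x i ≤ ∑ i, α i / Pb :=
        Finset.sum_le_sum (fun i _ => div_le_div_of_nonneg_left (hα i) hPb (hx i))
    _ = (∑ i, α i) / Pb := by rw [Finset.sum_div]
    _ ≤ (Pb / 2 * (1 - η)) / Pb := div_le_div_of_nonneg_right hs hPb.le
    _ = (1 - η) / 2 := by field_simp
    _ < 1 / 2 := by linarith

private lemma arith1 {P : ℝ} (h : 0 < P) :
    P * (1 - 1 / 100000) + 2000000 * (P * (1 / 1000000000000)) ≤ P * (1 - 1 / 200000) := by
  linarith

private lemma arith2 {P : ℝ} (h : 0 < P) :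
    (1 + 1 / (1000000 : ℝ)) * (P * (1 - 1 / 100000)) ≤ P * (1 - 1 / 200000) := by
  linarith

private lemma hull_inner {p q r u : E3} (hp : inner ℝ p u = 0) (hq : inner ℝ q u = 0)
    (hr : inner ℝ r u = 0) : ∀ x ∈ convexHull ℝ {p, q, r}, inner ℝ x u = 0 := by
  intro x hx
  rw [convexHull_three_eq] at hx
  obtain ⟨s, t, -, -, -, rfl⟩ := hx
  simp only [inner_add_left, inner_smul_left, inner_sub_left, hp, hq, hr]
  simp

/-- Let K ⊂ ℝ³ be a regular tetrahedron (convex hull of four points with equal pairwise distances ℓ > 0); areas are Lebesgue-normalised 2-dimensional Hausdorff measure, π_v y = y − ⟪y, v⟫ v. (1) Finitely many cylinders Bᵢ + ℝ uᵢ, ‖uᵢ‖ = 1, with parallelogram bases Bᵢ = cᵢ + [0,1]aᵢ + [0,1]bᵢ in uᵢ^⊥ cover K, ∑ᵢ area(Bᵢ) being below half of area(π_v K) by a positive margin for all unit v, and ∑ᵢ area(Bᵢ)/area(π_{uᵢ} K) < 1/2. (2) The same with bounded relatively open subsets of the uᵢ^⊥ as bases. -/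
theorem result
    (w : Fin 4 → EuclideanSpace ℝ (Fin 3)) (ℓ : ℝ) (hℓ : 0 < ℓ)
    (hw : ∀ i j, i ≠ j → dist (w i) (w j) = ℓ) :
    (∃ (k : ℕ) (u c a b : Fin k → EuclideanSpace ℝ (Fin 3)),
      (∀ i, ‖u i‖ = 1) ∧
      (∀ i, inner ℝ (c i) (u i) = 0 ∧ inner ℝ (a i) (u i) = 0 ∧ inner ℝ (b i) (u i) = 0) ∧
      convexHull ℝ (Set.range w) ⊆ ⋃ i, {x : EuclideanSpace ℝ (Fin 3) |
        ∃ s ∈ Set.Icc (0 : ℝ) 1, ∃ t ∈ Set.Icc (0 : ℝ) 1, ∃ τ : ℝ, x = c i + s • a i + t • b i + τ • u i} ∧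
      (∃ δ : ℝ, 0 < δ ∧ ∀ v : EuclideanSpace ℝ (Fin 3), ‖v‖ = 1 →
        (∑ i, (μHE[2] {x : EuclideanSpace ℝ (Fin 3) |
            ∃ s ∈ Set.Icc (0 : ℝ) 1, ∃ t ∈ Set.Icc (0 : ℝ) 1, x = c i + s • a i + t • b i}).toReal) + δ ≤
          (μHE[2] ((fun y => y - inner ℝ y v • v) '' convexHull ℝ (Set.range w))).toReal / 2) ∧
      ∑ i, (μHE[2] {x : EuclideanSpace ℝ (Fin 3) |
            ∃ s ∈ Set.Icc (0 : ℝ) 1, ∃ t ∈ Set.Icc (0 : ℝ) 1, x = c i + s • a i + t • b i}).toReal /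
          (μHE[2] ((fun y => y - inner ℝ y (u i) • u i) '' convexHull ℝ (Set.range w))).toReal < 1 / 2) ∧
    (∃ (k : ℕ) (u : Fin k → EuclideanSpace ℝ (Fin 3)) (B : Fin k → Set (EuclideanSpace ℝ (Fin 3))),
      (∀ i, ‖u i‖ = 1) ∧
      (∀ i, Bornology.IsBounded (B i) ∧ ∃ O : Set (EuclideanSpace ℝ (Fin 3)), IsOpen O ∧
        B i = O ∩ {x | inner ℝ x (u i) = 0}) ∧
      convexHull ℝ (Set.range w) ⊆
        ⋃ i, {x : EuclideanSpace ℝ (Fin 3) | ∃ y ∈ B i, ∃ τ : ℝ, x = y + τ • u i} ∧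
      (∃ δ : ℝ, 0 < δ ∧ ∀ v : EuclideanSpace ℝ (Fin 3), ‖v‖ = 1 →
        (∑ i, (μHE[2] (B i)).toReal) + δ ≤
          (μHE[2] ((fun y => y - inner ℝ y v • v) '' convexHull ℝ (Set.range w))).toReal / 2) ∧
      ∑ i, (μHE[2] (B i)).toReal /
          (μHE[2] ((fun y => y - inner ℝ y (u i) • u i) '' convexHull ℝ (Set.range w))).toReal < 1 / 2) := by
  obtain ⟨T, d, hK⟩ := exists_similarity w hℓ hw
  have hlam : 0 < ℓ / 2 := by positivity
  set lam := ℓ / 2 with hlamdef
  have hr2 := sqrt2_pos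
  set Pb := lam ^ 2 * Real.sqrt 2 with hPbdef
  have hPbpos : 0 < Pb := by positivity
  have hPb : ∀ v : E3, ‖v‖ = 1 →
      Pb ≤ (μHE[2] ((fun y => y - inner ℝ y v • v) '' convexHull ℝ (Set.range w))).toReal := by
    intro v hv
    rw [hK]
    exact area_proj_sim_ge T hlam d hv
  have hSum := sim_sum T hlam d
  have hSum' : ∑ j, (μHE[2] (convexHull ℝ {sG T lam d j (fP j), sG T lam d j (fQ j),
      sG T lam d j (fR j)})).toReal ≤ Pb / 2 * (1 - 1 / 100000) := by
    calc _ ≤ _ := hSum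
      _ = _ := by rw [hPbdef]; ring
  have hcov : convexHull ℝ (Set.range w) ⊆ _ := hK.le.trans (sim_cover T lam d)
  have hin : ∀ j, ∀ x ∈ convexHull ℝ {sG T lam d j (fP j), sG T lam d j (fQ j), sG T lam d j (fR j)},
      inner ℝ x (sU T j) = 0 := fun j =>
    hull_inner (inner_sG T lam d j (fam_inner j).1) (inner_sG T lam d j (fam_inner j).2.1)
      (inner_sG T lam d j (fam_inner j).2.2)
  constructor
  · -- parallelogram bases
    let M : ℕ := 1000000
    have hM : 0 < M := by norm_num [M]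
    have hMr : (M : ℝ) = 1000000 := by norm_num [M]
    let ι := FamIdx × Fin M
    let e := Fintype.equivFin ι
    let p : FamIdx → E3 := fun j => sG T lam d j (fP j)
    let q : FamIdx → E3 := fun j => sG T lam d j (fQ j)
    let r : FamIdx → E3 := fun j => sG T lam d j (fR j)
    let U : ι → E3 := fun i => sU T i.1
    let C : ι → E3 := fun i => p i.1 + (((i.2 : ℕ) : ℝ) / M) • (q i.1 - p i.1)
    let A : ι → E3 := fun i => (1 / (M : ℝ)) • (q i.1 - p i.1)
    let B : ι → E3 := fun i => (((i.2 : ℕ) + 1 : ℝ) / M) • (r i.1 - q i.1)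
    let α : ι → ℝ := fun i => (μHE[2] {x : E3 | ∃ s ∈ Set.Icc (0 : ℝ) 1, ∃ t ∈ Set.Icc (0 : ℝ) 1,
      x = C i + s • A i + t • B i}).toReal
    have hαsum : ∑ i, α i ≤ Pb / 2 * (1 - 1 / 200000) := by
      have h1 : ∑ i, α i = (1 + 1 / (M : ℝ)) * ∑ j, (μHE[2] (convexHull ℝ {p j, q j, r j})).toReal := by
        rw [Fintype.sum_prod_type, Finset.mul_sum]
        exact Finset.sum_congr rfl (fun j _ => para_sum (p j) (q j) (r j) hM)
      rw [h1, hMr]
      have h2 : (1 + 1 / (1000000 : ℝ)) * ∑ j, (μHE[2] (convexHull ℝ {p j, q j, r j})).toReal ≤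
          (1 + 1 / (1000000 : ℝ)) * (Pb / 2 * (1 - 1 / 100000)) :=
        mul_le_mul_of_nonneg_left hSum' (by norm_num)
      exact h2.trans (arith2 (by positivity))
    have hα0 : ∀ i, 0 ≤ α i := fun i => ENNReal.toReal_nonneg
    refine ⟨Fintype.card ι, fun i => U (e.symm i), fun i => C (e.symm i), fun i => A (e.symm i),
      fun i => B (e.symm i), fun i => sU_norm T _, ?_, ?_, ⟨Pb / 2 * (1 / 200000), by positivity, ?_⟩, ?_⟩
    · intro i
      have h1 : ∀ i : ι, inner ℝ (C i) (U i) = 0 ∧ inner ℝ (A i) (U i) = 0 ∧ inner ℝ (B i) (U i) = 0 := by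
        intro i
        have hp : inner ℝ (p i.1) (U i) = 0 := inner_sG T lam d i.1 (fam_inner i.1).1
        have hq : inner ℝ (q i.1) (U i) = 0 := inner_sG T lam d i.1 (fam_inner i.1).2.1
        have hr : inner ℝ (r i.1) (U i) = 0 := inner_sG T lam d i.1 (fam_inner i.1).2.2
        simp only [C, A, B, inner_add_left, inner_smul_left, inner_sub_left, hp, hq, hr]
        simp
      exact h1 _
    · intro X hX
      obtain ⟨j, b, hb, τ, rfl⟩ := mem_iUnion.1 (hcov hX)
      obtain ⟨k, s, hs, t, ht, hbe⟩ := para_cover (p j) (q j) (r j) hM hb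
      refine mem_iUnion.2 ⟨e (j, k), s, hs, t, ht, τ, ?_⟩
      simp only [Equiv.symm_apply_apply, U, C, A, B]
      rw [hbe]
    · intro v hv
      have h1 := hPb v hv
      have h2 : ∑ i, (μHE[2] {x : E3 | ∃ s ∈ Set.Icc (0 : ℝ) 1, ∃ t ∈ Set.Icc (0 : ℝ) 1,
          x = C (e.symm i) + s • A (e.symm i) + t • B (e.symm i)}).toReal = ∑ i, α i :=
        Equiv.sum_comp e.symm α
      rw [h2]
      linarith
    · have h2 : ∑ i, (μHE[2] {x : E3 | ∃ s ∈ Set.Icc (0 : ℝ) 1, ∃ t ∈ Set.Icc (0 : ℝ) 1,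
          x = C (e.symm i) + s • A (e.symm i) + t • B (e.symm i)}).toReal /
          (μHE[2] ((fun y => y - inner ℝ y (U (e.symm i)) • U (e.symm i)) '' convexHull ℝ (Set.range w))).toReal =
          ∑ i, α i / (μHE[2] ((fun y => y - inner ℝ y (U i) • U i) '' convexHull ℝ (Set.range w))).toReal :=
        Equiv.sum_comp e.symm (fun i => α i / (μHE[2] ((fun y => y - inner ℝ y (U i) • U i) '' convexHull ℝ (Set.range w))).toReal)
      rw [h2]
      exact final_ineq α _ hPbpos (by norm_num) hα0 (fun i => hPb _ (sU_norm T _)) hαsum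
  · -- open bases
    set ee : ℝ := Pb / 2 * (1 / 1000000000000) with hee
    have heepos : 0 < ee := by positivity
    have H : ∀ j : FamIdx, ∃ O : Set E3, IsOpen O ∧
        convexHull ℝ {sG T lam d j (fP j), sG T lam d j (fQ j), sG T lam d j (fR j)} ⊆ O ∧
        Bornology.IsBounded (O ∩ {x | inner ℝ x (sU T j) = 0}) ∧
        μHE[2] (O ∩ {x | inner ℝ x (sU T j) = 0}) ≤
          μHE[2] (convexHull ℝ {sG T lam d j (fP j), sG T lam d j (fQ j), sG T lam d j (fR j)}) +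
            ENNReal.ofReal ee := fun j =>
      exists_open_base (sU_norm T j) ((Set.toFinite _).isCompact_convexHull ℝ) (hin j) heepos
    choose O hO1 hO2 hO3 hO4 using H
    let ι := FamIdx
    let e := Fintype.equivFin ι
    let α : ι → ℝ := fun j => (μHE[2] (O j ∩ {x | inner ℝ x (sU T j) = 0})).toReal
    have hcardF : Fintype.card FamIdx = 2000000 := by
      show Fintype.card (Fin gridN ⊕ Fin gridN) = _
      rw [Fintype.card_sum, Fintype.card_fin]
      norm_num [gridN]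
    have hαle : ∀ j, α j ≤ (μHE[2] (convexHull ℝ {sG T lam d j (fP j), sG T lam d j (fQ j),
        sG T lam d j (fR j)})).toReal + ee := by
      intro j
      have hfin : μHE[2] (convexHull ℝ {sG T lam d j (fP j), sG T lam d j (fQ j), sG T lam d j (fR j)}) ≠ ∞ := by
        rw [area_triangle]
        exact ENNReal.ofReal_ne_top
      have h1 := ENNReal.toReal_mono (ENNReal.add_ne_top.2 ⟨hfin, ENNReal.ofReal_ne_top⟩) (hO4 j)
      rw [ENNReal.toReal_add hfin ENNReal.ofReal_ne_top, ENNReal.toReal_ofReal heepos.le] at h1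
      exact h1
    have hαsum : ∑ i, α i ≤ Pb / 2 * (1 - 1 / 200000) := by
      calc ∑ i, α i ≤ ∑ j : FamIdx, ((μHE[2] (convexHull ℝ {sG T lam d j (fP j), sG T lam d j (fQ j),
            sG T lam d j (fR j)})).toReal + ee) := Finset.sum_le_sum (fun j _ => hαle j)
        _ = ∑ j : FamIdx, (μHE[2] (convexHull ℝ {sG T lam d j (fP j), sG T lam d j (fQ j),
            sG T lam d j (fR j)})).toReal + (2000000 : ℝ) * ee := by
            rw [Finset.sum_add_distrib, Finset.sum_const, Finset.card_univ, hcardF, nsmul_eq_mul]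
            norm_num
        _ ≤ Pb / 2 * (1 - 1 / 100000) + (2000000 : ℝ) * ee := by linarith
        _ ≤ _ := arith1 (by positivity)
    have hα0 : ∀ i, 0 ≤ α i := fun i => ENNReal.toReal_nonneg
    refine ⟨Fintype.card ι, fun i => sU T (e.symm i),
      fun i => O (e.symm i) ∩ {x | inner ℝ x (sU T (e.symm i)) = 0},
      fun i => sU_norm T _, fun i => ⟨hO3 _, O (e.symm i), hO1 _, rfl⟩, ?_,
      ⟨Pb / 2 * (1 / 200000), by positivity, ?_⟩, ?_⟩
    · intro X hX
      obtain ⟨j, b, hb, τ, rfl⟩ := mem_iUnion.1 (hcov hX)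
      refine mem_iUnion.2 ⟨e j, b, ?_, τ, ?_⟩
      · simp only [Equiv.symm_apply_apply]
        exact ⟨hO2 j hb, hin j b hb⟩
      · simp only [Equiv.symm_apply_apply]
    · intro v hv
      have h1 := hPb v hv
      have h2 : ∑ i, (μHE[2] (O (e.symm i) ∩ {x | inner ℝ x (sU T (e.symm i)) = 0})).toReal = ∑ i, α i :=
        Equiv.sum_comp e.symm α
      rw [h2]
      linarith
    · have h2 : ∑ i, (μHE[2] (O (e.symm i) ∩ {x | inner ℝ x (sU T (e.symm i)) = 0})).toReal /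
          (μHE[2] ((fun y => y - inner ℝ y (sU T (e.symm i)) • sU T (e.symm i)) '' convexHull ℝ (Set.range w))).toReal =
          ∑ i, α i / (μHE[2] ((fun y => y - inner ℝ y (sU T i) • sU T i) '' convexHull ℝ (Set.range w))).toReal :=
        Equiv.sum_comp e.symm (fun i => α i / (μHE[2] ((fun y => y - inner ℝ y (sU T i) • sU T i) '' convexHull ℝ (Set.range w))).toReal)
      rw [h2]
      exact final_ineq α _ hPbpos (by norm_num) hα0 (fun i => hPb _ (sU_norm T _)) hαsum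

end Crest.Agent.S0327
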