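-- Statement S0423: proof by the crossing argument for stop-loss transforms; the analysis is in
-- `Crest.Agent.Lib.TruncExpA` ... `TruncExpF`.
import Crest.Statements.S0423
import Crest.Agent.Lib.TruncExpF

set_option autoImplicit false
open Crest Crest.AlgGeometry

namespace Crest.Agent.S0423

/-- For independent mean-one exponential random variables `X_1, …, X_N` (written as an integral over the positive orthant against the density `exp (-(x_1 + ⋯ + x_N))`), real coefficients `a_1, …, a_N` summing to zero, and the weight `g = truncExpWeight`, the quantity `(e^{4/3} / (4/3)) · E[g(4/3 + a_1 X_1 + ⋯ + a_N X_N)]` has supremum over all `N ≥ 1` and all such `a` exactly `(3/4) e^{4/3} − e/3`: it never exceeds this value, and comes within any `ε > 0` of it for some `N` and `a`. -/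
theorem result :
    (∀ (N : ℕ) (a : Fin N → ℝ), 1 ≤ N → ∑ i, a i = 0 →
      Real.exp (4 / 3) / (4 / 3) *
          ∫ x in Set.pi Set.univ (fun _ : Fin N => Set.Ioi (0 : ℝ)),
            Crest.AlgGeometry.truncExpWeight (4 / 3 + ∑ i, a i * x i) * Real.exp (-∑ i, x i)
        ≤ 3 / 4 * Real.exp (4 / 3) - Real.exp 1 / 3) ∧
    (∀ ε : ℝ, 0 < ε → ∃ (N : ℕ) (a : Fin N → ℝ), 1 ≤ N ∧ ∑ i, a i = 0 ∧
      3 / 4 * Real.exp (4 / 3) - Real.exp 1 / 3 - ε <
        Real.exp (4 / 3) / (4 / 3) *
          ∫ x in Set.pi Set.univ (fun _ : Fin N => Set.Ioi (0 : ℝ)),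
            Crest.AlgGeometry.truncExpWeight (4 / 3 + ∑ i, a i * x i) * Real.exp (-∑ i, x i)) := by
  have hval : Real.exp (4 / 3) / (4 / 3) * (1 - 4 / 9 * Real.exp (-(1 / 3))) =
      3 / 4 * Real.exp (4 / 3) - Real.exp 1 / 3 := by
    have h : Real.exp (4 / 3) * Real.exp (-(1 / 3)) = Real.exp 1 := by
      rw [← Real.exp_add]
      norm_num
    have e : Real.exp (4 / 3) / (4 / 3) * (1 - 4 / 9 * Real.exp (-(1 / 3))) =
        3 / 4 * Real.exp (4 / 3) - (Real.exp (4 / 3) * Real.exp (-(1 / 3))) / 3 := by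
      ring
    rw [e, h]
  have hc : 0 < Real.exp (4 / 3) / (4 / 3) := by positivity
  constructor
  · intro N a _ hsum
    rw [← hval]
    exact mul_le_mul_of_nonneg_left (Crest.Agent.Lib.TruncExp.upper N a hsum) hc.le
  · intro ε hε
    obtain ⟨n, hn⟩ := exists_nat_gt (Real.exp (4 / 3) / (4 / 3) * 8 / ε)
    have hpos : 0 < Real.exp (4 / 3) / (4 / 3) * 8 / ε := by positivity
    have hnpos : (0 : ℝ) < n := lt_trans hpos hn
    have hn0 : 0 < n := by exact_mod_cast hnpos
    refine ⟨n + 1, Fin.cons 2 (fun _ => -(2 / n)), by omega,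
      Crest.Agent.Lib.TruncExp.sum_cons_zero n hn0, ?_⟩
    have hl := Crest.Agent.Lib.TruncExp.lower n hn0
    have h1 := mul_le_mul_of_nonneg_left hl hc.le
    rw [mul_sub, hval] at h1
    refine lt_of_lt_of_le ?_ h1
    have h2 : Real.exp (4 / 3) / (4 / 3) * (8 / n) < ε := by
      rw [div_lt_iff₀ hε] at hn
      have : Real.exp (4 / 3) / (4 / 3) * (8 / n) = (Real.exp (4 / 3) / (4 / 3) * 8) / n := by ring
      rw [this, div_lt_iff₀ hnpos]
      linarith
    linarith

end Crest.Agent.S0423
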