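import Crest.Statements.S0534
import Crest.Agent.Lib.GADC.Main

set_option autoImplicit false
open Crest.Quantum Crest.MathPhysics.AmpDamp
open Crest Crest.MathPhysics

namespace Crest.Agent.S0534

open Crest.Agent.GADC Matrix
open scoped ComplexOrder

section aux

/-- Holevo information is unchanged by relabelling the output and input of a tensor power. -/
theorem holevoInfo_qubitPower_succ (Φ : Matrix Bool Bool ℂ → Matrix Bool Bool ℂ) (n m : ℕ)
    (q : Fin m → ℝ) (ρ : Fin m → Matrix (Fin (n + 1) → Bool) (Fin (n + 1) → Bool) ℂ) :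
    holevoInfo (qubitPower (n + 1) Φ) q ρ =
      holevoInfo (qubitTensor Φ (qubitPower n Φ)) q
        (fun a => reindex (powEquiv n) (powEquiv n) (ρ a)) := by
  unfold holevoInfo
  have h1 : ∀ a, qubitTensor Φ (qubitPower n Φ) (reindex (powEquiv n) (powEquiv n) (ρ a)) =
      reindex (powEquiv n) (powEquiv n) (qubitPower (n + 1) Φ (ρ a)) :=
    fun a => (qubitPower_succ Φ n (ρ a)).symm
  simp only [h1, vnEntropy_reindex]
  congr 1
  rw [← vnEntropy_reindex (∑ a, (q a : ℂ) • qubitPower (n + 1) Φ (ρ a)) (powEquiv n)]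
  congr 1
  ext i j
  simp [Matrix.sum_apply, reindex]

theorem isDensity_reindex {d d' : Type*} [Fintype d] [Fintype d'] {ρ : Matrix d d ℂ}
    (h : IsDensity ρ) (e : d ≃ d') : IsDensity (reindex e e ρ) := by
  refine ⟨?_, ?_⟩
  · have := h.1.submatrix e.symm
    simpa [reindex] using this
  · classical
    rw [← h.2]
    simp [reindex, Matrix.trace, Equiv.sum_comp e.symm (fun i => ρ i i)]

theorem isEnsemble_reindex {d d' : Type*} [Fintype d] [Fintype d'] {m : ℕ} {q : Fin m → ℝ}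
    {ρ : Fin m → Matrix d d ℂ} (h : IsEnsemble q ρ) (e : d ≃ d') :
    IsEnsemble q (fun a => reindex e e (ρ a)) :=
  ⟨h.1, h.2.1, fun a => isDensity_reindex (h.2.2 a) e⟩

/-- The zero-fold tensor power is the identity. -/
theorem qubitPower_zero (Φ : Matrix Bool Bool ℂ → Matrix Bool Bool ℂ)
    (M : Matrix (Fin 0 → Bool) (Fin 0 → Bool) ℂ) : qubitPower 0 Φ M = M := by
  ext σ τ
  simp only [qubitPower, Matrix.of_apply, Fintype.sum_unique, Finset.univ_eq_empty,
    Finset.prod_empty, one_mul]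
  have h1 : ∀ a b c d : Fin 0 → Bool, M a b = M c d := fun a b c d => by
    rw [Subsingleton.elim a c, Subsingleton.elim b d]
  exact h1 _ _ _ _

theorem density_unique {d : Type*} [Fintype d] [DecidableEq d] [Unique d] {ρ : Matrix d d ℂ} (h : IsDensity ρ) :
    ρ = 1 := by
  ext i j
  have h2 := h.2
  simp only [Matrix.trace, Matrix.diag, Fintype.sum_unique] at h2
  rw [Subsingleton.elim i default, Subsingleton.elim j default, h2]
  simp

theorem vnEntropy_one_unique {d : Type*} [Fintype d] [DecidableEq d] [Unique d] :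
    vnEntropy (1 : Matrix d d ℂ) = 0 := by
  have hA : (1 : Matrix d d ℂ).IsHermitian := Matrix.isHermitian_one
  rw [vnEntropy_eq_sum hA]
  have h := sum_eig_eq_of_charpoly (A := (1 : Matrix d d ℂ)) hA (fun _ : d => (1 : ℝ))
    (by simp [Matrix.charpoly_one]) Real.negMulLog
  rw [h]
  simp

/-- The Holevo information vanishes on the trivial system. -/
theorem holevoInfo_zero (Φ : Matrix Bool Bool ℂ → Matrix Bool Bool ℂ) {m : ℕ} {q : Fin m → ℝ}
    {ρ : Fin m → Matrix (Fin 0 → Bool) (Fin 0 → Bool) ℂ} (h : IsEnsemble q ρ) :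
    holevoInfo (qubitPower 0 Φ) q ρ = 0 := by
  unfold holevoInfo
  have h1 : ∀ a, qubitPower 0 Φ (ρ a) = 1 := fun a => by
    rw [qubitPower_zero, density_unique (h.2.2 a)]
  simp only [h1, vnEntropy_one_unique, mul_zero, Finset.sum_const_zero, sub_zero]
  have h2 : ∑ a, (q a : ℂ) • (1 : Matrix (Fin 0 → Bool) (Fin 0 → Bool) ℂ) = 1 := by
    rw [← Finset.sum_smul, ← Complex.ofReal_sum, h.2.1]
    simp
  rw [h2, vnEntropy_one_unique]

theorem upper (γ ν : ℝ) (hγ : γ ∈ Set.Icc (0 : ℝ) 1) (hν : ν ∈ Set.Icc (0 : ℝ) 1) (n : ℕ) :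
    ∀ (m : ℕ) (q : Fin m → ℝ) (ρ : Fin m → Matrix (Fin n → Bool) (Fin n → Bool) ℂ),
      IsEnsemble q ρ → ∃ p ∈ Set.Icc (0 : ℝ) 1,
        holevoInfo (qubitPower n (gadMap γ ν)) q ρ ≤ n * gadRate γ ν p := by
  induction n with
  | zero =>
    intro m q ρ h
    refine ⟨0, by simp, ?_⟩
    rw [holevoInfo_zero _ h]
    simp
  | succ n ih =>
    intro m q ρ h
    rw [holevoInfo_qubitPower_succ]
    obtain ⟨p, hp, m₂, q₂, ρ₂, h₂, hle⟩ :=
      holevo_tensor_le hγ hν (isChannel_qubitPower hγ hν n) q _ (isEnsemble_reindex h (powEquiv n))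
    obtain ⟨p', hp', hle'⟩ := ih m₂ q₂ ρ₂ h₂
    have hn : (0 : ℝ) ≤ n := Nat.cast_nonneg n
    push_cast
    rcases le_total (gadRate γ ν p) (gadRate γ ν p') with hc | hc
    · refine ⟨p', hp', ?_⟩
      nlinarith
    · refine ⟨p, hp, ?_⟩
      nlinarith

theorem lower (γ ν : ℝ) (hγ : γ ∈ Set.Icc (0 : ℝ) 1) (hν : ν ∈ Set.Icc (0 : ℝ) 1) (n : ℕ) :
    ∀ p ∈ Set.Icc (0 : ℝ) 1, ∃ (m : ℕ) (q : Fin m → ℝ)
        (ρ : Fin m → Matrix (Fin n → Bool) (Fin n → Bool) ℂ),
        IsEnsemble q ρ ∧ n * gadRate γ ν p ≤ holevoInfo (qubitPower n (gadMap γ ν)) q ρ := by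
  induction n with
  | zero =>
    intro p _
    have hens : IsEnsemble (fun _ : Fin 1 => (1 : ℝ))
        (fun _ : Fin 1 => (1 : Matrix (Fin 0 → Bool) (Fin 0 → Bool) ℂ)) := by
      refine ⟨fun _ => zero_le_one, by simp, fun _ => ⟨Matrix.PosSemidef.one, ?_⟩⟩
      simp
    refine ⟨1, _, _, hens, ?_⟩
    rw [holevoInfo_zero _ hens]
    simp
  | succ n ih =>
    intro p hp
    obtain ⟨q₁, ρ₁, h₁, hle₁⟩ := gadRate_achieved hγ hν hp
    obtain ⟨m₂, q₂, ρ₂, h₂, hle₂⟩ := ih p hp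
    obtain ⟨m, q, ρ, hens, hle⟩ :=
      holevo_tensor_ge hγ hν (isChannel_qubitPower hγ hν n) q₁ ρ₁ q₂ ρ₂ h₁ h₂
    refine ⟨m, q, fun a => reindex (powEquiv n).symm (powEquiv n).symm (ρ a),
      isEnsemble_reindex hens _, ?_⟩
    rw [holevoInfo_qubitPower_succ]
    have h3 : (fun a => reindex (powEquiv n) (powEquiv n)
        (reindex (powEquiv n).symm (powEquiv n).symm (ρ a))) = ρ := by
      funext a
      ext i j
      simp [reindex]
    rw [h3]
    push_cast
    linarith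

end aux

/-- For the generalized amplitude-damping qubit channel with damping `γ` and stationary excited population `ν` in `[0, 1]`, and every `n ≥ 1`: the Holevo information (nats) of every finite ensemble of `n`-qubit density matrices through the `n`-fold tensor power of the channel is at most `n` times the rate function at some point of `[0, 1]`, and for every `p` in `[0, 1]` some such ensemble reaches at least `n` times the rate at `p`. So the `n`-use Holevo capacity is `n` times the top rate. -/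
theorem result (γ ν : ℝ) (hγ : γ ∈ Set.Icc (0 : ℝ) 1)
    (hν : ν ∈ Set.Icc (0 : ℝ) 1) (n : ℕ) (hn : 1 ≤ n) :
    (∀ (m : ℕ) (q : Fin m → ℝ) (ρ : Fin m → Matrix (Fin n → Bool) (Fin n → Bool) ℂ),
        IsEnsemble q ρ → ∃ p ∈ Set.Icc (0 : ℝ) 1,
          holevoInfo (qubitPower n (gadMap γ ν)) q ρ ≤ n * gadRate γ ν p) ∧
    (∀ p ∈ Set.Icc (0 : ℝ) 1, ∃ (m : ℕ) (q : Fin m → ℝ)
        (ρ : Fin m → Matrix (Fin n → Bool) (Fin n → Bool) ℂ),
        IsEnsemble q ρ ∧ n * gadRate γ ν p ≤ holevoInfo (qubitPower n (gadMap γ ν)) q ρ) :=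
  ⟨upper γ ν hγ hν n, lower γ ν hγ hν n⟩

end Crest.Agent.S0534
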